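import Mathlib

/-! **Second order expansions at points of density.**  A function with a uniform one-point second
order estimate at the points of a set `F`, whose first order coefficient is differentiable relative
to `F` at a point around which `F` is not porous, has a second order expansion there. -/

namespace Vale.Agent.Lib.P084.Dens

open Set Metric Filter Topology

section Chain

variable {E W : Type*} [NormedAddCommGroup E] [NormedSpace ℝ E] [NormedAddCommGroup W]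
  [NormedSpace ℝ W]

/-- `F` is not porous at `z`: at small scales `r` every point of `closedBall z r` is `η r`-close
to `F`. -/
def Thick (F : Set E) (z : E) : Prop :=
  ∀ η : ℝ, 0 < η → ∃ r₀ : ℝ, 0 < r₀ ∧ ∀ r, 0 < r → r < r₀ → ∀ c, ‖c - z‖ ≤ r →
    ∃ c' ∈ F, ‖c' - c‖ ≤ η * r

lemma telescope {u : ℕ → W} {S : ℝ} (m : ℕ) (h : ∀ j, j < m → ‖u (j + 1) - u j‖ ≤ S) :
    ‖u m - u 0‖ ≤ m * S := by
  induction m with
  | zero => simp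
  | succ n ih =>
    have h1 := ih fun j hj => h j (by omega)
    have h2 := h n (by omega)
    have e : u (n + 1) - u 0 = (u (n + 1) - u n) + (u n - u 0) := by abel
    rw [e]
    refine (norm_add_le _ _).trans ?_
    push_cast
    nlinarith

/-- One step of the chain. -/
lemma step_bound {T : E → W} {A : E → E →L[ℝ] W} {B : E →L[ℝ] E →L[ℝ] W} {x₁ x₂ z v e w f : E}
    {K ε₁ : ℝ} (hq : ‖T x₂ - T x₁ - A x₁ (x₂ - x₁)‖ ≤ K * ‖x₂ - x₁‖ ^ 2)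
    (hd : ‖A x₁ - A z - B (x₁ - z)‖ ≤ ε₁ * ‖x₁ - z‖) (h1 : x₁ - z = v + e) (h2 : x₂ - x₁ = w + f) :
    ‖T x₂ - T x₁ - A z (x₂ - x₁) - B v w‖ ≤
      K * ‖x₂ - x₁‖ ^ 2 + ε₁ * ‖x₁ - z‖ * ‖x₂ - x₁‖ + ‖B‖ * ‖v‖ * ‖f‖ + ‖B‖ * ‖e‖ * ‖x₂ - x₁‖ := by
  have e1 : T x₂ - T x₁ - A z (x₂ - x₁) - B v w =
      (T x₂ - T x₁ - A x₁ (x₂ - x₁)) + (A x₁ - A z - B (x₁ - z)) (x₂ - x₁) + B v f +
        B e (x₂ - x₁) := by
    rw [h1]
    have : B v w = B v (x₂ - x₁) - B v f := by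
      rw [h2, map_add]
      abel
    rw [this]
    simp only [_root_.sub_apply, map_add, _root_.add_apply]
    abel
  rw [e1]
  have a1 := (A x₁ - A z - B (x₁ - z)).le_opNorm (x₂ - x₁)
  have a2 := B.le_opNorm₂ v f
  have a3 := B.le_opNorm₂ e (x₂ - x₁)
  have a4 := mul_le_mul_of_nonneg_right hd (norm_nonneg (x₂ - x₁))
  have b1 := norm_add_le ((T x₂ - T x₁ - A x₁ (x₂ - x₁)) + (A x₁ - A z - B (x₁ - z)) (x₂ - x₁) + B v f)
    (B e (x₂ - x₁))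
  have b2 := norm_add_le ((T x₂ - T x₁ - A x₁ (x₂ - x₁)) + (A x₁ - A z - B (x₁ - z)) (x₂ - x₁))
    (B v f)
  have b3 := norm_add_le (T x₂ - T x₁ - A x₁ (x₂ - x₁)) ((A x₁ - A z - B (x₁ - z)) (x₂ - x₁))
  linarith

/-- The bound for one step of a chain, in the normalised form. -/
lemma seq_step {T : E → W} {A : E → E →L[ℝ] W} {B : E →L[ℝ] E →L[ℝ] W} {K ε₁ r t : ℝ}
    {z y₁ a d x₁ x₂ : E} {j : ℕ} (hK : 0 ≤ K) (hε₁ : 0 < ε₁) (hr : 0 < r) (ht0 : 0 < t) (ht1 : t ≤ 1)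
    (hax : ‖a + ((j : ℝ) * t) • d‖ ≤ r) (hdr : ‖d‖ ≤ r) (ha : a = y₁ - z)
    (h1 : ‖x₁ - (y₁ + ((j : ℝ) * t) • d)‖ ≤ t ^ 2 * r)
    (h2 : ‖x₂ - (y₁ + (((j : ℝ) + 1) * t) • d)‖ ≤ t ^ 2 * r)
    (hq1 : ‖T x₂ - T x₁ - A x₁ (x₂ - x₁)‖ ≤ K * ‖x₂ - x₁‖ ^ 2)
    (hd1 : ‖A x₁ - A z - B (x₁ - z)‖ ≤ ε₁ * ‖x₁ - z‖) :
    ‖T x₂ - T x₁ - A z (x₂ - x₁) - B (a + ((j : ℝ) * t) • d) (t • d)‖ ≤
      r ^ 2 * (9 * K * t ^ 2 + 6 * ε₁ * t + 5 * ‖B‖ * t ^ 2) := by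
  obtain ⟨Bn, hBn⟩ : ∃ Bn : ℝ, Bn = ‖B‖ := ⟨_, rfl⟩
  have hBn0 : 0 ≤ Bn := by rw [hBn]; exact norm_nonneg B
  rw [← hBn]
  obtain ⟨v, hv⟩ : ∃ v, v = a + ((j : ℝ) * t) • d := ⟨_, rfl⟩
  obtain ⟨e, he⟩ : ∃ e, e = x₁ - (y₁ + ((j : ℝ) * t) • d) := ⟨_, rfl⟩
  obtain ⟨w, hw⟩ : ∃ w, w = t • d := ⟨_, rfl⟩
  obtain ⟨f, hf⟩ : ∃ f, f = (x₂ - (y₁ + (((j : ℝ) + 1) * t) • d)) - (x₁ - (y₁ + ((j : ℝ) * t) • d)) :=
    ⟨_, rfl⟩
  rw [← hv, ← hw]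
  rw [← hv] at hax
  have e1 : x₁ - z = v + e := by
    rw [hv, he, ha]
    abel
  have e2 : x₂ - x₁ = w + f := by
    rw [hw, hf, add_mul, one_mul, add_smul]
    abel
  have hen : ‖e‖ ≤ t ^ 2 * r := by rw [he]; exact h1
  have hfn : ‖f‖ ≤ 2 * (t ^ 2 * r) := by
    rw [hf]
    have := norm_sub_le (x₂ - (y₁ + (((j : ℝ) + 1) * t) • d)) (x₁ - (y₁ + ((j : ℝ) * t) • d))
    linarith
  have hηr : t ^ 2 * r ≤ r * t := by nlinarith [mul_pos hr ht0]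
  have hηr' : t ^ 2 * r ≤ r := by nlinarith [mul_pos hr ht0]
  have hwn : ‖w‖ ≤ r * t := by
    rw [hw, norm_smul, Real.norm_of_nonneg ht0.le]
    nlinarith
  have hsn : ‖x₂ - x₁‖ ≤ 3 * (r * t) := by
    rw [e2]
    have := norm_add_le w f
    linarith
  have hzn : ‖x₁ - z‖ ≤ 2 * r := by
    rw [e1]
    have := norm_add_le v e
    linarith
  have hb := step_bound (T := T) (A := A) (B := B) hq1 hd1 e1 e2
  refine hb.trans ?_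
  rw [← hBn]
  have s1 : ‖x₂ - x₁‖ ^ 2 ≤ (3 * (r * t)) ^ 2 := pow_le_pow_left₀ (norm_nonneg _) hsn 2
  have s2 : K * ‖x₂ - x₁‖ ^ 2 ≤ K * (3 * (r * t)) ^ 2 := mul_le_mul_of_nonneg_left s1 hK
  have s3 : ε₁ * ‖x₁ - z‖ * ‖x₂ - x₁‖ ≤ ε₁ * (2 * r) * (3 * (r * t)) :=
    mul_le_mul (mul_le_mul_of_nonneg_left hzn hε₁.le) hsn (norm_nonneg _) (by positivity)
  have s4 : Bn * ‖v‖ * ‖f‖ ≤ Bn * r * (2 * (t ^ 2 * r)) :=
    mul_le_mul (mul_le_mul_of_nonneg_left hax hBn0) hfn (norm_nonneg _) (by positivity)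
  have s5 : Bn * ‖e‖ * ‖x₂ - x₁‖ ≤ Bn * (t ^ 2 * r) * (3 * (r * t)) :=
    mul_le_mul (mul_le_mul_of_nonneg_left hen hBn0) hsn (norm_nonneg _) (by positivity)
  have s6 : Bn * (t ^ 2 * r) * (3 * (r * t)) ≤ r ^ 2 * (3 * Bn * t ^ 2) := by
    have h1 : 0 ≤ r ^ 2 * (3 * Bn * t ^ 2) := by positivity
    have h2 : Bn * (t ^ 2 * r) * (3 * (r * t)) = (r ^ 2 * (3 * Bn * t ^ 2)) * t := by ring
    rw [h2]
    nlinarith
  have e6 : K * (3 * (r * t)) ^ 2 + ε₁ * (2 * r) * (3 * (r * t)) + Bn * r * (2 * (t ^ 2 * r)) +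
      r ^ 2 * (3 * Bn * t ^ 2) = r ^ 2 * (9 * K * t ^ 2 + 6 * ε₁ * t + 5 * Bn * t ^ 2) := by ring
  linarith

/-- The ideal values along a chain. -/
noncomputable def ideal (Az : E →L[ℝ] W) (y₁ : E) (Bad Bdd : W) (t : ℝ) (x : E) (j : ℝ) : W :=
  Az (x - y₁) + (j * t) • Bad + (j * (j - 1) * (t ^ 2 / 2)) • Bdd

lemma ideal_step (Az : E →L[ℝ] W) (y₁ : E) (B : E →L[ℝ] E →L[ℝ] W) (a d : E) (t : ℝ) (x₁ x₂ : E) (j : ℝ) :
    ideal Az y₁ (B a d) (B d d) t x₂ (j + 1) - ideal Az y₁ (B a d) (B d d) t x₁ j =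
      Az (x₂ - x₁) + B (a + (j * t) • d) (t • d) := by
  simp only [ideal, map_add, map_smul, _root_.add_apply, _root_.smul_apply, map_sub]
  module

/-- The sum of the steps. -/
lemma seq_sum {T : E → W} {A : E → E →L[ℝ] W} {B : E →L[ℝ] E →L[ℝ] W} {K ε₁ r t : ℝ}
    {z y₁ a d : E} {m : ℕ} {zz : ℕ → E} (hK : 0 ≤ K) (hε₁ : 0 < ε₁) (hr : 0 < r) (ht0 : 0 < t)
    (ht1 : t ≤ 1) (hmt : (m : ℝ) * t = 1) (hdr : ‖d‖ ≤ r) (ha : a = y₁ - z)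
    (hax : ∀ j : ℕ, j ≤ m → ‖a + ((j : ℝ) * t) • d‖ ≤ r)
    (hzc : ∀ j : ℕ, j ≤ m → ‖zz j - (y₁ + ((j : ℝ) * t) • d)‖ ≤ t ^ 2 * r)
    (hq1 : ∀ j, j < m → ‖T (zz (j + 1)) - T (zz j) - A (zz j) (zz (j + 1) - zz j)‖ ≤
      K * ‖zz (j + 1) - zz j‖ ^ 2)
    (hdiff : ∀ j, j ≤ m → ‖A (zz j) - A z - B (zz j - z)‖ ≤ ε₁ * ‖zz j - z‖) :
    ‖(T (zz m) - ideal (A z) y₁ (B a d) (B d d) t (zz m) (m : ℝ)) -
        (T (zz 0) - ideal (A z) y₁ (B a d) (B d d) t (zz 0) ((0 : ℕ) : ℝ))‖ ≤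
      r ^ 2 * (9 * K * t + 6 * ε₁ + 5 * ‖B‖ * t) := by
  have hstep : ∀ j, j < m → ‖(T (zz (j + 1)) - ideal (A z) y₁ (B a d) (B d d) t (zz (j + 1)) ((j + 1 : ℕ) : ℝ)) -
      (T (zz j) - ideal (A z) y₁ (B a d) (B d d) t (zz j) (j : ℝ))‖ ≤
      r ^ 2 * (9 * K * t ^ 2 + 6 * ε₁ * t + 5 * ‖B‖ * t ^ 2) := by
    intro j hj
    have h2 := hzc (j + 1) hj
    push_cast at h2 ⊢
    have := seq_step (T := T) (A := A) (B := B) hK hε₁ hr ht0 ht1 (hax j hj.le) hdr ha (hzc j hj.le) h2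
      (hq1 j hj) (hdiff j hj.le)
    have e : (T (zz (j + 1)) - ideal (A z) y₁ (B a d) (B d d) t (zz (j + 1)) ((j : ℝ) + 1)) -
        (T (zz j) - ideal (A z) y₁ (B a d) (B d d) t (zz j) (j : ℝ)) =
        T (zz (j + 1)) - T (zz j) - A z (zz (j + 1) - zz j) - B (a + ((j : ℝ) * t) • d) (t • d) := by
      have := ideal_step (A z) y₁ B a d t (zz j) (zz (j + 1)) (j : ℝ)
      rw [sub_sub_sub_comm, this]
      abel
    rw [e]
    exact this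
  have hsum := telescope (W := W) (u := fun j : ℕ => T (zz j) - ideal (A z) y₁ (B a d) (B d d) t (zz j) (j : ℝ))
    m hstep
  refine hsum.trans (le_of_eq ?_)
  have h1 : (m : ℝ) * t ^ 2 = t := by
    calc (m : ℝ) * t ^ 2 = (m * t) * t := by ring
      _ = t := by rw [hmt, one_mul]
  calc (m : ℝ) * (r ^ 2 * (9 * K * t ^ 2 + 6 * ε₁ * t + 5 * ‖B‖ * t ^ 2)) =
      r ^ 2 * (9 * K * ((m : ℝ) * t ^ 2) + 6 * ε₁ * ((m : ℝ) * t) + 5 * ‖B‖ * ((m : ℝ) * t ^ 2)) := by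
        ring
    _ = _ := by rw [h1, hmt, mul_one]

/-- The identity of the last step. -/
lemma seq_identity {T : E → W} {A : E → E →L[ℝ] W} {B : E →L[ℝ] E →L[ℝ] W} {t : ℝ} {z y₁ y₂ a d ζ : E}
    {m : ℕ} (hmt : (m : ℝ) * t = 1) (hd : d = y₂ - y₁) :
    T y₂ - T y₁ - A z d - B a d - (1 / 2 : ℝ) • B d d =
      (T y₂ - T ζ - A ζ (y₂ - ζ)) + (A ζ - A z) (y₂ - ζ) +
        ((T ζ - ideal (A z) y₁ (B a d) (B d d) t ζ (m : ℝ)) -
          (T y₁ - ideal (A z) y₁ (B a d) (B d d) t y₁ ((0 : ℕ) : ℝ))) - (t / 2) • B d d := by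
  have e0 : ideal (A z) y₁ (B a d) (B d d) t y₁ ((0 : ℕ) : ℝ) = 0 := by
    simp [ideal]
  have e1 : ideal (A z) y₁ (B a d) (B d d) t ζ (m : ℝ) =
      A z (ζ - y₁) + B a d + (1 / 2 - t / 2 : ℝ) • B d d := by
    rw [ideal, hmt, one_smul]
    have : (m : ℝ) * ((m : ℝ) - 1) * (t ^ 2 / 2) = 1 / 2 - t / 2 := by
      have h1 : (m : ℝ) * ((m : ℝ) - 1) * (t ^ 2 / 2) =
          ((m * t) * (m * t)) / 2 - (m * t) * t / 2 := by ring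
      rw [h1, hmt]
      ring
    rw [this]
  have hdy : d = (y₂ - ζ) + (ζ - y₁) := by
    rw [hd]
    abel
  have e2 : A z d = A z (y₂ - ζ) + A z (ζ - y₁) := by
    nth_rewrite 1 [hdy]
    rw [map_add]
  rw [e0, e1, e2]
  simp only [_root_.sub_apply]
  module

/-- The chain estimate for a given chain. -/
lemma seq_final {T : E → W} {A : E → E →L[ℝ] W} {B : E →L[ℝ] E →L[ℝ] W} {K ε₁ r t : ℝ}
    {z y₁ y₂ a d : E} {m : ℕ} {zz : ℕ → E} (hK : 0 ≤ K) (hε₁ : 0 < ε₁) (hr : 0 < r) (ht0 : 0 < t)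
    (ht1 : t ≤ 1) (hmt : (m : ℝ) * t = 1) (hdr : ‖d‖ ≤ r) (ha : a = y₁ - z) (hd : d = y₂ - y₁)
    (hax : ∀ j : ℕ, j ≤ m → ‖a + ((j : ℝ) * t) • d‖ ≤ r) (hz0 : zz 0 = y₁)
    (hzc : ∀ j : ℕ, j ≤ m → ‖zz j - (y₁ + ((j : ℝ) * t) • d)‖ ≤ t ^ 2 * r)
    (hq1 : ∀ j, j < m → ‖T (zz (j + 1)) - T (zz j) - A (zz j) (zz (j + 1) - zz j)‖ ≤
      K * ‖zz (j + 1) - zz j‖ ^ 2)
    (hq2 : ‖T y₂ - T (zz m) - A (zz m) (y₂ - zz m)‖ ≤ K * ‖y₂ - zz m‖ ^ 2)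
    (hdiff : ∀ j, j ≤ m → ‖A (zz j) - A z - B (zz j - z)‖ ≤ ε₁ * ‖zz j - z‖) :
    ‖T y₂ - T y₁ - A z d - B a d - (1 / 2 : ℝ) • B d d‖ ≤
      r ^ 2 * ((10 * K + 8 * ‖B‖) * t + 8 * ε₁) := by
  obtain ⟨Bn, hBn⟩ : ∃ Bn : ℝ, Bn = ‖B‖ := ⟨_, rfl⟩
  have hBn0 : 0 ≤ Bn := by rw [hBn]; exact norm_nonneg B
  have hsum := seq_sum (T := T) (A := A) (B := B) hK hε₁ hr ht0 ht1 hmt hdr ha hax hzc hq1 hdiff
  rw [hz0] at hsum
  obtain ⟨ζ, hζ⟩ : ∃ ζ, ζ = zz m := ⟨_, rfl⟩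
  rw [← hζ] at hsum hq2
  rw [← hBn] at hsum ⊢
  have hcm : y₁ + ((m : ℝ) * t) • d = y₂ := by
    rw [hmt, one_smul, hd]
    abel
  have hζy : ‖y₂ - ζ‖ ≤ t ^ 2 * r := by
    have := hzc m le_rfl
    rw [hcm, ← hζ, norm_sub_rev] at this
    exact this
  have hηr' : t ^ 2 * r ≤ r := by nlinarith [mul_pos hr ht0]
  have hζz : ‖ζ - z‖ ≤ 2 * r := by
    have e : ζ - z = (ζ - y₂) + (a + ((m : ℝ) * t) • d) := by
      rw [hmt, one_smul, ha, hd]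
      abel
    rw [e]
    have h1 := norm_add_le (ζ - y₂) (a + ((m : ℝ) * t) • d)
    have h2 := hax m le_rfl
    rw [norm_sub_rev] at h1
    linarith
  have hAd : ‖A ζ - A z‖ ≤ (ε₁ + Bn) * (2 * r) := by
    have h1 := hdiff m le_rfl
    rw [← hζ] at h1
    have e : A ζ - A z = (A ζ - A z - B (ζ - z)) + B (ζ - z) := by abel
    rw [e]
    refine (norm_add_le _ _).trans ?_
    have h2 := B.le_opNorm (ζ - z)
    rw [← hBn] at h2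
    have h3 : ε₁ * ‖ζ - z‖ ≤ ε₁ * (2 * r) := mul_le_mul_of_nonneg_left hζz hε₁.le
    have h4 : Bn * ‖ζ - z‖ ≤ Bn * (2 * r) := mul_le_mul_of_nonneg_left hζz hBn0
    nlinarith
  rw [seq_identity (T := T) (A := A) (B := B) (z := z) (a := a) (ζ := ζ) hmt hd]
  have n1 := norm_sub_le ((T y₂ - T ζ - A ζ (y₂ - ζ)) + (A ζ - A z) (y₂ - ζ) +
    ((T ζ - ideal (A z) y₁ (B a d) (B d d) t ζ (m : ℝ)) -
          (T y₁ - ideal (A z) y₁ (B a d) (B d d) t y₁ ((0 : ℕ) : ℝ)))) ((t / 2) • B d d)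
  have n2 := norm_add_le ((T y₂ - T ζ - A ζ (y₂ - ζ)) + (A ζ - A z) (y₂ - ζ))
    ((T ζ - ideal (A z) y₁ (B a d) (B d d) t ζ (m : ℝ)) -
          (T y₁ - ideal (A z) y₁ (B a d) (B d d) t y₁ ((0 : ℕ) : ℝ)))
  have n3 := norm_add_le (T y₂ - T ζ - A ζ (y₂ - ζ)) ((A ζ - A z) (y₂ - ζ))
  have n4 : ‖(A ζ - A z) (y₂ - ζ)‖ ≤ (ε₁ + Bn) * (2 * r) * (t ^ 2 * r) :=
    ((A ζ - A z).le_opNorm _).trans (mul_le_mul hAd hζy (norm_nonneg _) (by positivity))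
  have n5 : ‖(t / 2) • B d d‖ ≤ t / 2 * (Bn * r * r) := by
    rw [norm_smul, Real.norm_of_nonneg (by positivity)]
    refine mul_le_mul_of_nonneg_left ?_ (by positivity)
    have h1 := B.le_opNorm₂ d d
    rw [← hBn] at h1
    exact h1.trans (mul_le_mul (mul_le_mul_of_nonneg_left hdr hBn0) hdr (norm_nonneg _) (by positivity))
  have n6 : K * ‖y₂ - ζ‖ ^ 2 ≤ r ^ 2 * (K * t) := by
    have h1 : ‖y₂ - ζ‖ ^ 2 ≤ (t ^ 2 * r) ^ 2 := pow_le_pow_left₀ (norm_nonneg _) hζy 2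
    have h2 : (t ^ 2 * r) ^ 2 ≤ r ^ 2 * t := by
      have h3 : t ^ 4 ≤ t := by
        have : t ^ 3 ≤ 1 := pow_le_one₀ ht0.le ht1
        nlinarith
      have h4 : (t ^ 2 * r) ^ 2 = r ^ 2 * t ^ 4 := by ring
      rw [h4]
      exact mul_le_mul_of_nonneg_left h3 (by positivity)
    have h5 := mul_le_mul_of_nonneg_left (h1.trans h2) hK
    calc _ ≤ _ := h5
      _ = _ := by ring
  have n7 : (ε₁ + Bn) * (2 * r) * (t ^ 2 * r) ≤ r ^ 2 * (2 * ε₁ + 2 * Bn * t) := by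
    have h1 : t ^ 2 ≤ t := by nlinarith
    have h2 : t ^ 2 ≤ 1 := by nlinarith
    have h3 : (ε₁ + Bn) * (2 * r) * (t ^ 2 * r) = r ^ 2 * (2 * ε₁ * t ^ 2 + 2 * Bn * t ^ 2) := by ring
    rw [h3]
    refine mul_le_mul_of_nonneg_left ?_ (by positivity)
    nlinarith
  have n8 : t / 2 * (Bn * r * r) ≤ r ^ 2 * (Bn * t) := by
    have h1 : 0 ≤ r ^ 2 * (Bn * t) := by positivity
    have h2 : t / 2 * (Bn * r * r) = r ^ 2 * (Bn * t) / 2 := by ring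
    rw [h2]
    linarith
  have e9 : r ^ 2 * (K * t) + r ^ 2 * (2 * ε₁ + 2 * Bn * t) + r ^ 2 * (9 * K * t + 6 * ε₁ + 5 * Bn * t) +
      r ^ 2 * (Bn * t) = r ^ 2 * ((10 * K + 8 * Bn) * t + 8 * ε₁) := by ring
  rw [← e9]
  have n10 : ‖T y₂ - T ζ - A ζ (y₂ - ζ)‖ ≤ r ^ 2 * (K * t) := hq2.trans n6
  have n11 : ‖(A ζ - A z) (y₂ - ζ)‖ ≤ r ^ 2 * (2 * ε₁ + 2 * Bn * t) := n4.trans n7
  have n12 : ‖(t / 2) • B d d‖ ≤ r ^ 2 * (Bn * t) := n5.trans n8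
  exact n1.trans (add_le_add (n2.trans (add_le_add (n3.trans (add_le_add n10 n11)) hsum)) n12)

/-- **The chain lemma.** -/
theorem chain {F : Set E} {z : E} {T : E → W} {A : E → E →L[ℝ] W} {B : E →L[ℝ] E →L[ℝ] W} {K δ : ℝ}
    (hK : 0 ≤ K) (hδ : 0 < δ)
    (hq : ∀ x ∈ F, ∀ y, ‖y - x‖ < δ → ‖T y - T x - A x (y - x)‖ ≤ K * ‖y - x‖ ^ 2)
    (hd : ∀ ε : ℝ, 0 < ε → ∃ ρ : ℝ, 0 < ρ ∧ ∀ x ∈ F, ‖x - z‖ < ρ →
      ‖A x - A z - B (x - z)‖ ≤ ε * ‖x - z‖)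
    (ht : Thick F z) {ε : ℝ} (hε : 0 < ε) :
    ∃ ρ : ℝ, 0 < ρ ∧ ∀ y₁ ∈ F, ∀ y₂, ‖y₁ - z‖ + ‖y₂ - y₁‖ < ρ →
      ‖T y₂ - T y₁ - A z (y₂ - y₁) - B (y₁ - z) (y₂ - y₁) - (1 / 2 : ℝ) • B (y₂ - y₁) (y₂ - y₁)‖ ≤
        ε * (‖y₁ - z‖ + ‖y₂ - y₁‖) ^ 2 := by
  obtain ⟨Bn, hBn⟩ : ∃ Bn : ℝ, Bn = ‖B‖ := ⟨_, rfl⟩
  have hBn0 : 0 ≤ Bn := by rw [hBn]; exact norm_nonneg B
  obtain ⟨m, hm⟩ := exists_nat_ge (max 1 ((10 * K + 8 * Bn + 1) * 2 / ε))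
  have hm1 : (1 : ℝ) ≤ m := (le_max_left _ _).trans hm
  have hm2 : (10 * K + 8 * Bn + 1) * 2 / ε ≤ m := (le_max_right _ _).trans hm
  have hm0 : (0 : ℝ) < m := by linarith
  obtain ⟨t, htd⟩ : ∃ t : ℝ, t = 1 / m := ⟨_, rfl⟩
  have ht0 : 0 < t := by rw [htd]; positivity
  have ht1 : t ≤ 1 := by
    rw [htd, div_le_one hm0]
    exact hm1
  have hmt : (m : ℝ) * t = 1 := by
    rw [htd]
    field_simp
  have hts : (10 * K + 8 * Bn) * t ≤ ε / 2 := by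
    rw [div_le_iff₀ hε] at hm2
    have h1 : (10 * K + 8 * Bn + 1) * 2 * t ≤ m * ε * t := mul_le_mul_of_nonneg_right hm2 ht0.le
    have h2 : (m : ℝ) * ε * t = ε := by
      calc (m : ℝ) * ε * t = (m * t) * ε := by ring
        _ = ε := by rw [hmt, one_mul]
    have h3 : 0 ≤ t := ht0.le
    nlinarith
  obtain ⟨ε₁, hε₁⟩ : ∃ ε₁ : ℝ, ε₁ = ε / 16 := ⟨_, rfl⟩
  have hε₁0 : 0 < ε₁ := by rw [hε₁]; positivity
  obtain ⟨r₀, hr₀, hthick⟩ := ht (t ^ 2) (by positivity)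
  obtain ⟨ρ₁, hρ₁, hdiff⟩ := hd ε₁ hε₁0
  refine ⟨min r₀ (min (ρ₁ / 2) (δ / 3)), by positivity, fun y₁ hy₁ y₂ hr => ?_⟩
  obtain ⟨a, ha⟩ : ∃ a, a = y₁ - z := ⟨_, rfl⟩
  obtain ⟨d, hd'⟩ : ∃ d, d = y₂ - y₁ := ⟨_, rfl⟩
  rw [← ha, ← hd'] at hr ⊢
  obtain ⟨r, hrd⟩ : ∃ r, r = ‖a‖ + ‖d‖ := ⟨_, rfl⟩
  rw [← hrd] at hr ⊢
  have hr1 : r < r₀ := hr.trans_le (min_le_left _ _)
  have hr2 : r < ρ₁ / 2 := hr.trans_le ((min_le_right _ _).trans (min_le_left _ _))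
  have hr3 : r < δ / 3 := hr.trans_le ((min_le_right _ _).trans (min_le_right _ _))
  have ha0 := norm_nonneg a
  have hd0 := norm_nonneg d
  have hrn : 0 ≤ r := by rw [hrd]; positivity
  rcases hrn.eq_or_lt with hr0 | hrpos
  · have h1 : ‖d‖ = 0 := by linarith
    have h2 : d = 0 := norm_eq_zero.1 h1
    have h3 : y₂ = y₁ := by
      rw [hd'] at h2
      exact sub_eq_zero.1 h2
    rw [h2, h3]
    simp [← hr0]
  -- the chain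
  have hax : ∀ j : ℕ, j ≤ m → ‖a + ((j : ℝ) * t) • d‖ ≤ r := by
    intro j hj
    have hj' : (j : ℝ) * t ≤ 1 := by
      have : (j : ℝ) ≤ m := by exact_mod_cast hj
      rw [← hmt]
      exact mul_le_mul_of_nonneg_right this ht0.le
    have hj0 : 0 ≤ (j : ℝ) * t := by positivity
    refine (norm_add_le _ _).trans ?_
    rw [norm_smul, Real.norm_of_nonneg hj0, hrd]
    nlinarith
  have hcz : ∀ j : ℕ, j ≤ m → ‖(y₁ + ((j : ℝ) * t) • d) - z‖ ≤ r := by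
    intro j hj
    have e : (y₁ + ((j : ℝ) * t) • d) - z = a + ((j : ℝ) * t) • d := by
      rw [ha]
      abel
    rw [e]
    exact hax j hj
  have hsel : ∀ j : ℕ, ∃ c' ∈ F, j ≤ m → ‖c' - (y₁ + ((j : ℝ) * t) • d)‖ ≤ t ^ 2 * r := by
    intro j
    by_cases hj : j ≤ m
    · obtain ⟨c', h1, h2⟩ := hthick r hrpos hr1 _ (hcz j hj)
      exact ⟨c', h1, fun _ => h2⟩
    · exact ⟨y₁, hy₁, fun h => absurd h hj⟩
  choose z' hz'F hz'c using hsel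
  obtain ⟨zz, hzz⟩ : ∃ zz : ℕ → E, zz = fun j => if j = 0 then y₁ else z' j := ⟨_, rfl⟩
  have hzz0 : zz 0 = y₁ := by rw [hzz]; simp
  have hzzF : ∀ j, zz j ∈ F := by
    intro j
    rw [hzz]
    dsimp only
    split_ifs
    · exact hy₁
    · exact hz'F j
  have hzzc : ∀ j : ℕ, j ≤ m → ‖zz j - (y₁ + ((j : ℝ) * t) • d)‖ ≤ t ^ 2 * r := by
    intro j hj
    by_cases h0 : j = 0
    · subst h0
      rw [hzz0]
      simp only [Nat.cast_zero, zero_mul, zero_smul, add_zero, sub_self, norm_zero]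
      positivity
    · have : zz j = z' j := by
        rw [hzz]
        simp [h0]
      rw [this]
      exact hz'c j hj
  have hcm : y₁ + ((m : ℝ) * t) • d = y₂ := by
    rw [hmt, one_smul, hd']
    abel
  have hηr : t ^ 2 * r ≤ r * t := by nlinarith [mul_pos hrpos ht0]
  have hηr' : t ^ 2 * r ≤ r := by nlinarith [mul_pos hrpos ht0]
  have hrt : r * t ≤ r := by nlinarith
  have hzd : ∀ j : ℕ, j ≤ m → ‖zz j - z‖ ≤ 2 * r := by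
    intro j hj
    have e : zz j - z = (zz j - (y₁ + ((j : ℝ) * t) • d)) + ((y₁ + ((j : ℝ) * t) • d) - z) := by abel
    rw [e]
    have h1 := norm_add_le (zz j - (y₁ + ((j : ℝ) * t) • d)) ((y₁ + ((j : ℝ) * t) • d) - z)
    have h2 := hzzc j hj
    have h3 := hcz j hj
    linarith
  have hdr : ‖d‖ ≤ r := by linarith
  have hfin := seq_final (T := T) (A := A) (B := B) (K := K) (ε₁ := ε₁) (r := r) (t := t) (z := z)
    (y₁ := y₁) (y₂ := y₂) (a := a) (d := d) (m := m) (zz := zz) hK hε₁0 hrpos ht0 ht1 hmt hdr ha hd'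
    hax hzz0 hzzc ?_ ?_ (fun j hj => hdiff _ (hzzF j) (by have := hzd j hj; linarith))
  · rw [← hBn] at hfin
    refine hfin.trans ?_
    have h1 : (10 * K + 8 * Bn) * t + 8 * ε₁ ≤ ε := by
      rw [hε₁]
      linarith
    have := mul_le_mul_of_nonneg_left h1 (by positivity : 0 ≤ r ^ 2)
    linarith
  · intro j hj
    refine hq _ (hzzF j) _ ?_
    have h1 := hzzc j hj.le
    have h2 := hzzc (j + 1) hj
    push_cast at h2
    have e : zz (j + 1) - zz j = (zz (j + 1) - (y₁ + (((j : ℝ) + 1) * t) • d)) -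
        (zz j - (y₁ + ((j : ℝ) * t) • d)) + t • d := by
      rw [add_mul, one_mul, add_smul]
      abel
    rw [e]
    have h3 := norm_add_le ((zz (j + 1) - (y₁ + (((j : ℝ) + 1) * t) • d)) -
        (zz j - (y₁ + ((j : ℝ) * t) • d))) (t • d)
    have h4 := norm_sub_le (zz (j + 1) - (y₁ + (((j : ℝ) + 1) * t) • d))
        (zz j - (y₁ + ((j : ℝ) * t) • d))
    have h5 : ‖t • d‖ ≤ r := by
      rw [norm_smul, Real.norm_of_nonneg ht0.le]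
      nlinarith
    linarith
  · refine hq _ (hzzF m) _ ?_
    have h1 := hzzc m le_rfl
    rw [hcm, norm_sub_rev] at h1
    linarith

/-- The expansion at the base point. -/
theorem peano_of_chain {F : Set E} {z : E} {T : E → W} {A : E → E →L[ℝ] W} {B : E →L[ℝ] E →L[ℝ] W}
    {K δ : ℝ} (hK : 0 ≤ K) (hδ : 0 < δ)
    (hq : ∀ x ∈ F, ∀ y, ‖y - x‖ < δ → ‖T y - T x - A x (y - x)‖ ≤ K * ‖y - x‖ ^ 2)
    (hd : ∀ ε : ℝ, 0 < ε → ∃ ρ : ℝ, 0 < ρ ∧ ∀ x ∈ F, ‖x - z‖ < ρ →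
      ‖A x - A z - B (x - z)‖ ≤ ε * ‖x - z‖)
    (ht : Thick F z) (hz : z ∈ F) {ε : ℝ} (hε : 0 < ε) :
    ∃ ρ : ℝ, 0 < ρ ∧ ∀ y, ‖y - z‖ < ρ →
      ‖T y - T z - A z (y - z) - (1 / 2 : ℝ) • B (y - z) (y - z)‖ ≤ ε * ‖y - z‖ ^ 2 := by
  obtain ⟨ρ, hρ, hb⟩ := chain hK hδ hq hd ht hε
  refine ⟨ρ, hρ, fun y hy => ?_⟩
  have h1 := hb z hz y (by simpa using hy)
  simpa using h1

/-- **Symmetry of the second order coefficient.** -/
theorem sym_of_chain {F : Set E} {z : E} {T : E → W} {A : E → E →L[ℝ] W} {B : E →L[ℝ] E →L[ℝ] W}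
    {K δ : ℝ} (hK : 0 ≤ K) (hδ : 0 < δ)
    (hq : ∀ x ∈ F, ∀ y, ‖y - x‖ < δ → ‖T y - T x - A x (y - x)‖ ≤ K * ‖y - x‖ ^ 2)
    (hd : ∀ ε : ℝ, 0 < ε → ∃ ρ : ℝ, 0 < ρ ∧ ∀ x ∈ F, ‖x - z‖ < ρ →
      ‖A x - A z - B (x - z)‖ ≤ ε * ‖x - z‖)
    (ht : Thick F z) (hz : z ∈ F) (a b : E) : B a b = B b a := by
  rw [← sub_eq_zero, ← norm_eq_zero]
  refine le_antisymm (le_of_forall_pos_le_add fun κ hκ => ?_) (norm_nonneg _)
  rw [zero_add]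
  obtain ⟨C, hC⟩ : ∃ C : ℝ, C = ‖a‖ + ‖b‖ + 1 := ⟨_, rfl⟩
  have hC1 : 1 ≤ C := by
    rw [hC]
    have := norm_nonneg a
    have := norm_nonneg b
    linarith
  have hC0 : 0 < C := by linarith
  have ha : ‖a‖ ≤ C := by
    rw [hC]
    have := norm_nonneg b
    linarith
  have hb' : ‖b‖ ≤ C := by
    rw [hC]
    have := norm_nonneg a
    linarith
  obtain ⟨Bn, hBn⟩ : ∃ Bn : ℝ, Bn = ‖B‖ + 1 := ⟨_, rfl⟩
  have hBn1 : 0 < Bn := by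
    rw [hBn]
    positivity
  have hBle : ‖B‖ ≤ Bn := by rw [hBn]; linarith
  obtain ⟨ε, hεd⟩ : ∃ ε : ℝ, ε = κ / (108 * C ^ 2) := ⟨_, rfl⟩
  have hε : 0 < ε := by rw [hεd]; positivity
  obtain ⟨η, hηd⟩ : ∃ η : ℝ, η = min 1 (κ / (4 * Bn * C ^ 2)) := ⟨_, rfl⟩
  have hη : 0 < η := by rw [hηd]; positivity
  have hη1 : η ≤ 1 := by rw [hηd]; exact min_le_left _ _
  have hη2 : η ≤ κ / (4 * Bn * C ^ 2) := by rw [hηd]; exact min_le_right _ _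
  obtain ⟨ρ, hρ, hch⟩ := chain hK hδ hq hd ht hε
  obtain ⟨r₀, hr₀, hth⟩ := ht η hη
  -- the scale
  obtain ⟨t, htd⟩ : ∃ t : ℝ, t = min (r₀ / (2 * C)) (ρ / (4 * C)) := ⟨_, rfl⟩
  have ht0 : 0 < t := by rw [htd]; positivity
  have ht1 : t * C < r₀ := by
    have h1 : t ≤ r₀ / (2 * C) := by rw [htd]; exact min_le_left _ _
    rw [le_div_iff₀ (by positivity)] at h1
    nlinarith [mul_pos ht0 hC0]
  have ht2 : 3 * (t * C) < ρ := by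
    have h1 : t ≤ ρ / (4 * C) := by rw [htd]; exact min_le_right _ _
    rw [le_div_iff₀ (by positivity)] at h1
    nlinarith [mul_pos ht0 hC0]
  have hc : ‖(z + t • a) - z‖ ≤ t * C := by
    rw [add_sub_cancel_left, norm_smul, Real.norm_of_nonneg ht0.le]
    exact mul_le_mul_of_nonneg_left ha ht0.le
  obtain ⟨y₁, hy₁, hy₁c⟩ := hth (t * C) (by positivity) ht1 _ hc
  obtain ⟨e, he⟩ : ∃ e, e = y₁ - (z + t • a) := ⟨_, rfl⟩
  have hen : ‖e‖ ≤ η * (t * C) := by rw [he]; exact hy₁c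
  have hen' : ‖e‖ ≤ t * C := by nlinarith [mul_pos ht0 hC0]
  obtain ⟨α, hα⟩ : ∃ α, α = y₁ - z := ⟨_, rfl⟩
  have hαe : α = t • a + e := by
    rw [hα, he]
    abel
  obtain ⟨v, hv⟩ : ∃ v, v = t • b := ⟨_, rfl⟩
  have hvn : ‖v‖ ≤ t * C := by
    rw [hv, norm_smul, Real.norm_of_nonneg ht0.le]
    exact mul_le_mul_of_nonneg_left hb' ht0.le
  have hαn : ‖α‖ ≤ 2 * (t * C) := by
    rw [hαe]
    refine (norm_add_le _ _).trans ?_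
    rw [norm_smul, Real.norm_of_nonneg ht0.le]
    have := mul_le_mul_of_nonneg_left ha ht0.le
    linarith
  have hsum : ‖α‖ + ‖v‖ ≤ 3 * (t * C) := by linarith
  have hy₂ : y₁ + v - z = α + v := by
    rw [hα]
    abel
  -- the three estimates
  have c1 := hch y₁ hy₁ (y₁ + v) (by
    rw [add_sub_cancel_left, ← hα]
    linarith)
  rw [add_sub_cancel_left, ← hα] at c1
  have c2 := hch z hz y₁ (by
    rw [sub_self, norm_zero, zero_add, ← hα]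
    linarith)
  rw [sub_self, norm_zero, zero_add, ← hα] at c2
  have c3 := hch z hz (y₁ + v) (by
    rw [sub_self, norm_zero, zero_add, hy₂]
    have := norm_add_le α v
    linarith)
  rw [sub_self, norm_zero, zero_add, hy₂] at c3
  have hv2 : ‖α + v‖ ≤ 3 * (t * C) := by
    have := norm_add_le α v
    linarith
  simp only [map_zero, _root_.zero_apply, sub_zero] at c2 c3
  have e9 : (1 / 2 : ℝ) • (B α v - B v α) =
      (T (y₁ + v) - T z - A z (α + v) - (1 / 2 : ℝ) • B (α + v) (α + v)) -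
        (T y₁ - T z - A z α - (1 / 2 : ℝ) • B α α) -
        (T (y₁ + v) - T y₁ - A z v - B α v - (1 / 2 : ℝ) • B v v) := by
    simp only [map_add, _root_.add_apply]
    module
  have hsq : ∀ s : ℝ, 0 ≤ s → s ≤ 3 * (t * C) → ε * s ^ 2 ≤ ε * (3 * (t * C)) ^ 2 := fun s h0 h1 =>
    mul_le_mul_of_nonneg_left (pow_le_pow_left₀ h0 h1 2) hε.le
  have b1 : ‖(1 / 2 : ℝ) • (B α v - B v α)‖ ≤ 3 * (ε * (3 * (t * C)) ^ 2) := by
    rw [e9]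
    have n1 := norm_sub_le ((T (y₁ + v) - T z - A z (α + v) - (1 / 2 : ℝ) • B (α + v) (α + v)) -
        (T y₁ - T z - A z α - (1 / 2 : ℝ) • B α α))
        (T (y₁ + v) - T y₁ - A z v - B α v - (1 / 2 : ℝ) • B v v)
    have n2 := norm_sub_le (T (y₁ + v) - T z - A z (α + v) - (1 / 2 : ℝ) • B (α + v) (α + v))
        (T y₁ - T z - A z α - (1 / 2 : ℝ) • B α α)
    have h1 := c3.trans (hsq _ (norm_nonneg _) hv2)
    have htC : 0 < t * C := mul_pos ht0 hC0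
    have h2 := c2.trans (hsq _ (norm_nonneg _) (by linarith))
    have h3 := c1.trans (hsq _ (by positivity) hsum)
    linarith
  rw [norm_smul, Real.norm_of_nonneg (by norm_num)] at b1
  have b2 : ‖B α v - B v α‖ ≤ 6 * (ε * (3 * (t * C)) ^ 2) := by linarith
  -- expand
  have e10 : B α v - B v α = (t ^ 2) • (B a b - B b a) + t • (B e b - B b e) := by
    rw [hαe, hv]
    simp only [map_add, map_smul, _root_.add_apply, _root_.smul_apply]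
    module
  have b3 : ‖t • (B e b - B b e)‖ ≤ t * (2 * (Bn * (η * (t * C)) * C)) := by
    rw [norm_smul, Real.norm_of_nonneg ht0.le]
    refine mul_le_mul_of_nonneg_left ?_ ht0.le
    have h1 : ‖B e b‖ ≤ Bn * (η * (t * C)) * C :=
      (B.le_opNorm₂ e b).trans (mul_le_mul (mul_le_mul hBle hen (norm_nonneg _) hBn1.le) hb'
        (norm_nonneg _) (by positivity))
    have h2 : ‖B b e‖ ≤ Bn * (η * (t * C)) * C := by
      have h3 := (B.le_opNorm₂ b e).trans (mul_le_mul (mul_le_mul hBle hb' (norm_nonneg _) hBn1.le) hen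
        (norm_nonneg _) (by positivity))
      calc _ ≤ _ := h3
        _ = _ := by ring
    have := norm_sub_le (B e b) (B b e)
    linarith
  have b4 : ‖(t ^ 2) • (B a b - B b a)‖ ≤ 6 * (ε * (3 * (t * C)) ^ 2) + t * (2 * (Bn * (η * (t * C)) * C)) := by
    have e11 : (t ^ 2) • (B a b - B b a) = (B α v - B v α) - t • (B e b - B b e) := by
      rw [e10]
      abel
    rw [e11]
    have := norm_sub_le (B α v - B v α) (t • (B e b - B b e))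
    linarith
  rw [norm_smul, Real.norm_of_nonneg (by positivity)] at b4
  have hrw : 6 * (ε * (3 * (t * C)) ^ 2) + t * (2 * (Bn * (η * (t * C)) * C)) =
      t ^ 2 * (54 * ε * C ^ 2 + 2 * Bn * η * C ^ 2) := by ring
  rw [hrw] at b4
  have b5 := le_of_mul_le_mul_left b4 (by positivity)
  refine b5.trans ?_
  have e1 : 54 * ε * C ^ 2 = κ / 2 := by
    rw [hεd]
    field_simp
    norm_num
  have e2 : 2 * Bn * η * C ^ 2 ≤ κ / 2 := by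
    rw [le_div_iff₀ (by positivity)] at hη2
    nlinarith
  linarith

end Chain

end Vale.Agent.Lib.P084.Dens
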