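import Mathlib
import Vale.Agent.Lib.P084.Dens.Chain

/-! Consequences of a second order expansion for functions homogeneous of degree one. -/

namespace Vale.Agent.Lib.P084.Dens

open Set Metric Filter Topology

section Euler

variable {E W : Type*} [NormedAddCommGroup E] [NormedSpace ℝ E] [NormedAddCommGroup W]
  [NormedSpace ℝ W]

/-- A second order expansion at `z`. -/
def Exp2 (T : E → W) (z : E) (L : E →L[ℝ] W) (B : E →L[ℝ] E →L[ℝ] W) : Prop :=
  ∀ ε : ℝ, 0 < ε → ∃ ρ : ℝ, 0 < ρ ∧ ∀ y, ‖y - z‖ < ρ →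
    ‖T y - T z - L (y - z) - (1 / 2 : ℝ) • B (y - z) (y - z)‖ ≤ ε * ‖y - z‖ ^ 2

lemma euler_aux {T : E → W} {L : E →L[ℝ] W} {B : E →L[ℝ] E →L[ℝ] W} {z : E}
    (hsym : ∀ a b, B a b = B b a) (hom : ∀ c : ℝ, 0 < c → ∀ y, T (c • y) = c • T y)
    (hL : L z = T z) (hP : Exp2 T z L B) (b : E) : B z z + (2 : ℝ) • B z b = 0 := by
  rw [← norm_eq_zero]
  refine le_antisymm (le_of_forall_pos_le_add fun κ hκ => ?_) (norm_nonneg _)
  rw [zero_add]
  obtain ⟨M, hM⟩ : ∃ M : ℝ, M = ‖z‖ + 2 * ‖b‖ + 1 := ⟨_, rfl⟩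
  have hM1 : 1 ≤ M := by
    rw [hM]
    have := norm_nonneg z
    have := norm_nonneg b
    linarith
  have hM0 : 0 < M := by linarith
  have hbM : ‖b‖ ≤ M := by
    rw [hM]
    have := norm_nonneg z
    have := norm_nonneg b
    linarith
  obtain ⟨C', hC'⟩ : ∃ C' : ℝ, C' = 2 * ‖B z b‖ + 2 * ‖B b b‖ + 1 := ⟨_, rfl⟩
  have hC'0 : 0 < C' := by
    rw [hC']
    positivity
  obtain ⟨ε, hεd⟩ : ∃ ε : ℝ, ε = κ / (12 * M ^ 2) := ⟨_, rfl⟩
  have hε : 0 < ε := by rw [hεd]; positivity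
  obtain ⟨ρ, hρ, hb⟩ := hP ε hε
  obtain ⟨s, hsd⟩ : ∃ s : ℝ, s = min 1 (min (κ / (2 * C')) (ρ / (2 * M))) := ⟨_, rfl⟩
  have hs0 : 0 < s := by rw [hsd]; positivity
  have hs1 : s ≤ 1 := by rw [hsd]; exact min_le_left _ _
  have hs2 : s ≤ κ / (2 * C') := by
    rw [hsd]
    exact (min_le_right _ _).trans (min_le_left _ _)
  have hs3 : s ≤ ρ / (2 * M) := by
    rw [hsd]
    exact (min_le_right _ _).trans (min_le_right _ _)
  rw [le_div_iff₀ (by positivity)] at hs2 hs3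
  have hsM : s * M < ρ := by nlinarith [mul_pos hs0 hM0]
  obtain ⟨y₁, hy₁⟩ : ∃ y₁, y₁ = z + s • b := ⟨_, rfl⟩
  obtain ⟨y₂, hy₂⟩ : ∃ y₂, y₂ = (1 + s) • y₁ := ⟨_, rfl⟩
  obtain ⟨m, hm⟩ : ∃ m, m = z + b + s • b := ⟨_, rfl⟩
  have hmn : ‖m‖ ≤ M := by
    rw [hm, hM]
    have h1 := norm_add_le (z + b) (s • b)
    have h2 := norm_add_le z b
    have h3 : ‖s • b‖ ≤ ‖b‖ := by
      rw [norm_smul, Real.norm_of_nonneg hs0.le]
      nlinarith [norm_nonneg b]
    linarith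
  have e1 : y₁ - z = s • b := by
    rw [hy₁]
    abel
  have e2 : y₂ - z = s • m := by
    rw [hy₂, hy₁, hm]
    module
  have n1 : ‖y₁ - z‖ ≤ s * M := by
    rw [e1, norm_smul, Real.norm_of_nonneg hs0.le]
    exact mul_le_mul_of_nonneg_left hbM hs0.le
  have n2 : ‖y₂ - z‖ ≤ s * M := by
    rw [e2, norm_smul, Real.norm_of_nonneg hs0.le]
    exact mul_le_mul_of_nonneg_left hmn hs0.le
  have c1 := hb y₁ (by linarith)
  have c2 := hb y₂ (by linarith)
  have hsq : ∀ v : ℝ, 0 ≤ v → v ≤ s * M → ε * v ^ 2 ≤ ε * (s * M) ^ 2 := fun v h0 h1 =>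
    mul_le_mul_of_nonneg_left (pow_le_pow_left₀ h0 h1 2) hε.le
  have c1' := c1.trans (hsq _ (norm_nonneg _) n1)
  have c2' := c2.trans (hsq _ (norm_nonneg _) n2)
  rw [e1] at c1'
  rw [e2] at c2'
  have hT2 : T y₂ = (1 + s) • T y₁ := by
    rw [hy₂]
    exact hom _ (by positivity) _
  obtain ⟨Z, hZ⟩ : ∃ Z, Z = B z z + (2 * (1 + s)) • B z b + (s * (1 + s)) • B b b := ⟨_, rfl⟩
  have hid : (-(1 / 2 : ℝ) * s ^ 2) • Z =
      (T y₂ - T z - L (s • m) - (1 / 2 : ℝ) • B (s • m) (s • m)) -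
        (1 + s) • (T y₁ - T z - L (s • b) - (1 / 2 : ℝ) • B (s • b) (s • b)) := by
    rw [hT2, hm, hZ]
    simp only [map_add, map_smul, _root_.add_apply, _root_.smul_apply, hsym b z, hL]
    module
  have hZb : (1 / 2 : ℝ) * s ^ 2 * ‖Z‖ ≤ 3 * (ε * (s * M) ^ 2) := by
    have h1 : ‖(-(1 / 2 : ℝ) * s ^ 2) • Z‖ = (1 / 2 : ℝ) * s ^ 2 * ‖Z‖ := by
      rw [norm_smul, Real.norm_eq_abs, abs_of_nonpos (by nlinarith [sq_nonneg s])]
      ring
    rw [← h1, hid]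
    refine (norm_sub_le _ _).trans ?_
    rw [norm_smul, Real.norm_of_nonneg (by positivity : 0 ≤ 1 + s)]
    have h2 : (1 + s) * ‖T y₁ - T z - L (s • b) - (1 / 2 : ℝ) • B (s • b) (s • b)‖ ≤
        2 * (ε * (s * M) ^ 2) :=
      mul_le_mul (by linarith) c1' (norm_nonneg _) (by norm_num)
    linarith
  have hZb2 : ‖Z‖ ≤ 6 * (ε * M ^ 2) := by
    have h1 : 3 * (ε * (s * M) ^ 2) = (1 / 2 : ℝ) * s ^ 2 * (6 * (ε * M ^ 2)) := by ring
    rw [h1] at hZb
    exact le_of_mul_le_mul_left hZb (by positivity)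
  have hid2 : B z z + (2 : ℝ) • B z b = Z - s • ((2 : ℝ) • B z b + (1 + s) • B b b) := by
    rw [hZ]
    module
  rw [hid2]
  refine (norm_sub_le _ _).trans ?_
  have h3 : 6 * (ε * M ^ 2) = κ / 2 := by
    rw [hεd]
    field_simp
    norm_num
  have h4 : ‖s • ((2 : ℝ) • B z b + (1 + s) • B b b)‖ ≤ s * C' := by
    rw [norm_smul, Real.norm_of_nonneg hs0.le]
    refine mul_le_mul_of_nonneg_left ?_ hs0.le
    refine (norm_add_le _ _).trans ?_
    rw [norm_smul, norm_smul, Real.norm_of_nonneg (by norm_num : (0 : ℝ) ≤ 2),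
      Real.norm_of_nonneg (by positivity : 0 ≤ 1 + s), hC']
    have : (1 + s) * ‖B b b‖ ≤ 2 * ‖B b b‖ :=
      mul_le_mul_of_nonneg_right (by linarith) (norm_nonneg _)
    linarith
  linarith

/-- **Euler's identity in the second order term.** -/
theorem euler_second {T : E → W} {L : E →L[ℝ] W} {B : E →L[ℝ] E →L[ℝ] W} {z : E}
    (hsym : ∀ a b, B a b = B b a) (hom : ∀ c : ℝ, 0 < c → ∀ y, T (c • y) = c • T y)
    (hL : L z = T z) (hP : Exp2 T z L B) (b : E) : B z b = 0 := by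
  have h0 := euler_aux hsym hom hL hP 0
  have h1 := euler_aux hsym hom hL hP b
  simp only [map_zero, smul_zero, add_zero] at h0
  rw [h0, zero_add] at h1
  exact (smul_eq_zero.1 h1).resolve_left (by norm_num)

end Euler

section Convex

variable {E : Type*} [NormedAddCommGroup E] [NormedSpace ℝ E]

/-- Nonnegativity of the second order term of the norm. -/
theorem psd_of_exp {L : E →L[ℝ] ℝ} {H : E →L[ℝ] E →L[ℝ] ℝ} {z : E}
    (hP : Exp2 (fun y : E => ‖y‖) z L H) (w : E) : 0 ≤ H w w := by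
  refine le_of_forall_pos_le_add fun κ hκ => ?_
  obtain ⟨ε, hεd⟩ : ∃ ε : ℝ, ε = κ / (4 * (‖w‖ ^ 2 + 1)) := ⟨_, rfl⟩
  have hε : 0 < ε := by rw [hεd]; positivity
  obtain ⟨ρ, hρ, hb⟩ := hP ε hε
  obtain ⟨s, hsd⟩ : ∃ s : ℝ, s = ρ / (2 * (‖w‖ + 1)) := ⟨_, rfl⟩
  have hs0 : 0 < s := by rw [hsd]; positivity
  have hsw : s * ‖w‖ < ρ := by
    rw [hsd, div_mul_eq_mul_div, div_lt_iff₀ (by positivity)]
    nlinarith [norm_nonneg w]
  have c1 := hb (z + s • w) (by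
    rw [add_sub_cancel_left, norm_smul, Real.norm_of_nonneg hs0.le]
    exact hsw)
  have c2 := hb (z - s • w) (by
    rw [sub_sub_cancel_left, norm_neg, norm_smul, Real.norm_of_nonneg hs0.le]
    exact hsw)
  rw [add_sub_cancel_left] at c1
  rw [sub_sub_cancel_left] at c2
  simp only [map_smul, map_neg, _root_.smul_apply, _root_.neg_apply, smul_eq_mul, norm_neg, norm_smul,
    Real.norm_of_nonneg hs0.le, Real.norm_eq_abs, abs_norm] at c1 c2
  have h1 := (abs_le.1 c1).2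
  have h2 := (abs_le.1 c2).2
  have h3 : 2 * ‖z‖ ≤ ‖z + s • w‖ + ‖z - s • w‖ := by
    have e : (2 : ℝ) • z = (z + s • w) + (z - s • w) := by
      rw [two_smul]
      abel
    have := norm_add_le (z + s • w) (z - s • w)
    rw [← e, norm_smul] at this
    simpa using this
  have h4 : s ^ 2 * (H w w + 2 * (ε * ‖w‖ ^ 2)) ≥ 0 := by nlinarith
  have h5 : 0 ≤ H w w + 2 * (ε * ‖w‖ ^ 2) := by
    by_contra hneg
    push Not at hneg
    have : s ^ 2 * (H w w + 2 * (ε * ‖w‖ ^ 2)) < 0 := mul_neg_of_pos_of_neg (by positivity) hneg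
    linarith
  have h6 : 2 * (ε * ‖w‖ ^ 2) ≤ κ := by
    rw [hεd]
    have : κ / (4 * (‖w‖ ^ 2 + 1)) * ‖w‖ ^ 2 ≤ κ / 4 := by
      rw [div_mul_eq_mul_div, div_le_div_iff₀ (by positivity) (by norm_num)]
      nlinarith [sq_nonneg ‖w‖]
    linarith
  linarith

/-- The null vectors of a positive semidefinite symmetric form are in its kernel. -/
lemma null_of_psd {H : E →L[ℝ] E →L[ℝ] ℝ} (hsym : ∀ a b, H a b = H b a)
    (hpsd : ∀ w, 0 ≤ H w w) {w : E} (h : H w w = 0) : H w = 0 := by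
  refine ContinuousLinearMap.ext fun c => ?_
  have h1 : ∀ s : ℝ, 0 ≤ H c c * (s * s) + (2 * H w c) * s + 0 := by
    intro s
    have h2 := hpsd (w + s • c)
    simp only [map_add, map_smul, _root_.add_apply, _root_.smul_apply, smul_eq_mul, h] at h2
    rw [hsym c w] at h2
    nlinarith
  have h3 := discrim_le_zero h1
  rw [discrim] at h3
  simp only [_root_.zero_apply]
  nlinarith [sq_nonneg (H w c)]

end Convex

end Vale.Agent.Lib.P084.Dens
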