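import Mathlib
import Vale.Agent.Lib.P084.Str.Cone

/-! First order data at one point of finite second difference: no differentiability elsewhere. -/

namespace Vale.Agent.Lib.P084.Dens

open Set Metric Filter Topology
open Vale.Agent.Lib.P084 Vale.Agent.Lib.P084.Str

section Curve

variable {E : Type*} [NormedAddCommGroup E] [NormedSpace ℝ E]

/-- A point of finite second difference is a point of differentiability. -/
lemma reg_differentiable {x : E} (hx : ‖x‖ = 1) (hR : Far.Reg x) :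
    DifferentiableAt ℝ (fun z : E => ‖z‖) x := by
  by_contra hd
  exact Far.not_reg_of hx (Far.second_diff_of_not_differentiable hx hd) hR

variable {x₀ w : E} (hd : DifferentiableAt ℝ (fun z : E => ‖z‖) x₀) (hx₀ : ‖x₀‖ = 1)

include hd in
lemma chi_self_unit (hx₀ : ‖x₀‖ = 1) : chi x₀ x₀ = 1 := by
  have : chi x₀ x₀ = ‖x₀‖ := hd.fderiv_norm_self
  rw [this, hx₀]

include hd hx₀ in
lemma line_ne' (hw : chi x₀ w = 0) (ε : ℝ) : x₀ + ε • w ≠ 0 := by
  intro h
  have h1 := congrArg (chi x₀) h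
  rw [map_add, map_smul, hw, chi_self_unit hd hx₀] at h1
  simp at h1

include hd hx₀ in
lemma curve_unit' (hw : chi x₀ w = 0) (ε : ℝ) : ‖curve x₀ w ε‖ = 1 :=
  unit_of_ne (line_ne' hd hx₀ hw ε)

include hd hx₀ in
lemma curve_deriv' (hw : chi x₀ w = 0) : HasDerivAt (curve x₀ w) w 0 := by
  have hl : HasDerivAt (fun ε : ℝ => x₀ + ε • w) w 0 := by
    simpa using ((hasDerivAt_id (0 : ℝ)).smul_const w).const_add x₀
  have hn : HasDerivAt (fun ε : ℝ => ‖x₀ + ε • w‖) (chi x₀ w) 0 :=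
    HasFDerivAt.comp_hasDerivAt_of_eq (0 : ℝ) hd.hasFDerivAt hl (by simp)
  rw [hw] at hn
  have hne : ‖x₀ + (0 : ℝ) • w‖ ≠ 0 := by simp [hx₀]
  have hi := hn.fun_inv hne
  have h := hi.smul hl
  refine h.congr_deriv ?_
  simp [hx₀]

include hd hx₀ in
lemma curve_isBigO' (hw : chi x₀ w = 0) :
    ∃ C : ℝ, ∀ᶠ ε in 𝓝 (0 : ℝ), ‖curve x₀ w ε - x₀‖ ≤ C * |ε| := by
  have h1 := (curve_deriv' hd hx₀ hw).isBigO_sub
  obtain ⟨C, hC⟩ := h1.bound
  refine ⟨C, ?_⟩
  filter_upwards [hC] with ε hε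
  rw [curve_zero hx₀] at hε
  simpa using hε

end Curve

section First

variable {X Y : Type*} [NormedAddCommGroup X] [NormedSpace ℝ X]
  [NormedAddCommGroup Y] [NormedSpace ℝ Y] {g : X → Y} {h : Y → X} {x₀ : X} {A : X →L[ℝ] Y}

lemma remainder_deriv' (hd : DifferentiableAt ℝ (fun z : X => ‖z‖) x₀) (hx₀ : ‖x₀‖ = 1)
    (hA : A x₀ = g x₀) (hO : BigO g x₀ A) {w : X} (hw : chi x₀ w = 0) :
    HasDerivAt (fun ε : ℝ => g (curve x₀ w ε) - A (curve x₀ w ε)) 0 0 := by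
  obtain ⟨K, hK⟩ := hO
  obtain ⟨C, hC⟩ := curve_isBigO' hd hx₀ hw
  have hc : Tendsto (curve x₀ w) (𝓝 0) (𝓝 x₀) := by
    have := (curve_deriv' hd hx₀ hw).continuousAt.tendsto
    rwa [curve_zero hx₀] at this
  refine hasDerivAt_zero_of_sq (C := |K| * C ^ 2) ?_ ?_
  · rw [curve_zero hx₀, hA, sub_self]
  · filter_upwards [hc.eventually hK, hC] with ε h1 h2
    refine (h1 (curve_unit' hd hx₀ hw ε)).trans ?_
    have h3 : ‖curve x₀ w ε - x₀‖ ^ 2 ≤ (C * |ε|) ^ 2 := pow_le_pow_left₀ (norm_nonneg _) h2 2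
    have h4 : (C * |ε|) ^ 2 = C ^ 2 * ε ^ 2 := by
      rw [mul_pow, sq_abs]
    rw [h4] at h3
    calc K * ‖curve x₀ w ε - x₀‖ ^ 2 ≤ |K| * ‖curve x₀ w ε - x₀‖ ^ 2 :=
          mul_le_mul_of_nonneg_right (le_abs_self K) (by positivity)
      _ ≤ |K| * (C ^ 2 * ε ^ 2) := mul_le_mul_of_nonneg_left h3 (abs_nonneg K)
      _ = |K| * C ^ 2 * ε ^ 2 := by ring

lemma image_deriv' (hd : DifferentiableAt ℝ (fun z : X => ‖z‖) x₀) (hx₀ : ‖x₀‖ = 1)
    (hA : A x₀ = g x₀) (hO : BigO g x₀ A) {w : X} (hw : chi x₀ w = 0) (v : Y) :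
    HasDerivAt (fun ε : ℝ => g (curve x₀ w ε) - v) (A w) 0 := by
  have h1 := remainder_deriv' hd hx₀ hA hO hw
  have h2 : HasDerivAt (fun ε : ℝ => A (curve x₀ w ε)) (A w) 0 :=
    A.hasFDerivAt.comp_hasDerivAt (0 : ℝ) (curve_deriv' hd hx₀ hw)
  have h3 := (h1.fun_add h2).sub_const v
  refine (h3.congr_deriv (by simp)).congr_of_eventuallyEq ?_
  exact Filter.Eventually.of_forall fun ε => by simp

/-- `A` preserves the norm on the tangent hyperplane. -/
theorem first_norm' (H : SphereIso g h) (hd : DifferentiableAt ℝ (fun z : X => ‖z‖) x₀)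
    (hx₀ : ‖x₀‖ = 1) (hA : A x₀ = g x₀) (hO : BigO g x₀ A) {w : X} (hw : chi x₀ w = 0) :
    ‖A w‖ = ‖w‖ := by
  have h1 := (image_deriv' hd hx₀ hA hO hw (g x₀)).tendsto_slope_zero
  have h2 := (curve_deriv' hd hx₀ hw).tendsto_slope_zero
  have h3 := h1.norm
  have h4 := h2.norm
  refine tendsto_nhds_unique h3 (h4.congr fun t => ?_)
  simp only [zero_add, curve_zero hx₀, sub_self, sub_zero, norm_smul]
  rw [H.iso _ _ (curve_unit' hd hx₀ hw t) hx₀]

/-- `A` is bounded by `3`. -/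
theorem first_bound' (H : SphereIso g h) (hd : DifferentiableAt ℝ (fun z : X => ‖z‖) x₀)
    (hx₀ : ‖x₀‖ = 1) (hA : A x₀ = g x₀) (hO : BigO g x₀ A) : ‖A‖ ≤ 3 := by
  have hself : chi x₀ x₀ = 1 := chi_self_unit hd hx₀
  refine A.opNorm_le_bound (by norm_num) fun z => ?_
  have hz : chi x₀ (z - chi x₀ z • x₀) = 0 := by
    rw [map_sub, map_smul, hself]
    simp
  have h1 := first_norm' H hd hx₀ hA hO hz
  have h2 : |chi x₀ z| ≤ ‖z‖ := abs_chi_le x₀ z
  have h3 : ‖z - chi x₀ z • x₀‖ ≤ ‖z‖ + ‖z‖ := by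
    refine (norm_sub_le _ _).trans ?_
    rw [norm_smul, hx₀, mul_one, Real.norm_eq_abs]
    linarith
  have e : A z = A (z - chi x₀ z • x₀) + chi x₀ z • g x₀ := by
    rw [map_sub, map_smul, hA]
    abel
  rw [e]
  refine (norm_add_le _ _).trans ?_
  rw [h1, norm_smul, H.map_g _ hx₀, mul_one, Real.norm_eq_abs]
  linarith

variable [FiniteDimensional ℝ X] [FiniteDimensional ℝ Y]

/-- The first order approximation at a point of finite second difference. -/
lemma exists_A' (H : SphereIso g h) {x : X} (hx : ‖x‖ = 1) (hR : Far.Reg x) :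
    ∃ (A : X →L[ℝ] Y) (K : ℝ), ‖A‖ ≤ 3 ∧ A x = g x ∧
      ∀ᶠ y in 𝓝 x, ‖y‖ = 1 → ‖g y - A y‖ ≤ K * ‖y - x‖ ^ 2 := by
  have hd := reg_differentiable hx hR
  have hself : chi x x = 1 := chi_self_unit hd hx
  have hx0 : x ≠ 0 := by
    rintro rfl
    simp at hx
  have : Nontrivial X := ⟨⟨x, 0, hx0⟩⟩
  obtain ⟨L, K₀, hK₀⟩ := Far.exists_L H hx
  obtain ⟨C, hC⟩ := hR
  have hC' : ∀ᶠ y in 𝓝 x, ‖x + (y - x)‖ + ‖x - (y - x)‖ - 2 * ‖x‖ ≤ C * ‖y - x‖ ^ 2 := by
    have hc : Tendsto (fun y : X => y - x) (𝓝 x) (𝓝 0) := by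
      have : Continuous fun y : X => y - x := by fun_prop
      simpa using this.tendsto x
    exact hc.eventually hC
  let A : X →L[ℝ] Y := L - (chi x).smulRight (L x - g x)
  have hAx : A x = g x := by
    simp [A, hself]
  have hb : ∃ K : ℝ, ∀ᶠ y in 𝓝 x, ‖y‖ = 1 → ‖g y - A y‖ ≤ K * ‖y - x‖ ^ 2 := by
    refine ⟨K₀ + |C| * ‖L x - g x‖, ?_⟩
    filter_upwards [hK₀, hC'] with y h1 h2 hy
    have h3 := h1 hy
    rw [add_sub_cancel, hy, hx] at h2
    have h4 : chi x (x - (y - x)) ≤ ‖x - (y - x)‖ := chi_le _ _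
    have e0 : x - (y - x) = (2 : ℝ) • x - y := by
      rw [two_smul]
      abel
    rw [e0, map_sub, map_smul, hself] at h4
    rw [e0] at h2
    have h5 : 1 - chi x y ≤ C * ‖y - x‖ ^ 2 := by
      simp only [smul_eq_mul] at h4
      linarith
    have h6 : 0 ≤ 1 - chi x y := by
      have := chi_le x y
      rw [hy] at this
      linarith
    have e1 : g y - A y = (g y - g x - L (y - x)) - (1 - chi x y) • (L x - g x) := by
      simp only [A, _root_.sub_apply, ContinuousLinearMap.smulRight_apply, map_sub]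
      module
    rw [e1]
    refine (norm_sub_le _ _).trans ?_
    rw [norm_smul, Real.norm_of_nonneg h6, add_mul]
    refine add_le_add h3 ?_
    have h7 : C * ‖y - x‖ ^ 2 ≤ |C| * ‖y - x‖ ^ 2 :=
      mul_le_mul_of_nonneg_right (le_abs_self C) (by positivity)
    have h8 := mul_le_mul_of_nonneg_right (h5.trans h7) (norm_nonneg (L x - g x))
    calc _ ≤ _ := h8
      _ = _ := by ring
  obtain ⟨K, hK⟩ := hb
  exact ⟨A, K, first_bound' H hd hx hAx ⟨K, hK⟩, hAx, hK⟩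

/-- Every point of the sphere with finite second difference has some level. -/
lemma mem_Fk' (H : SphereIso g h) {x : X} (hx : ‖x‖ = 1) (hR : Far.Reg x) : ∃ k, x ∈ Fk g k := by
  obtain ⟨A, K, hA3, hAx, hK⟩ := exists_A' H hx hR
  obtain ⟨C, hC⟩ := hR
  obtain ⟨δ₁, hδ₁, hb₁⟩ := Metric.eventually_nhds_iff.1 hK
  obtain ⟨δ₂, hδ₂, hb₂⟩ := Metric.eventually_nhds_iff.1 hC
  obtain ⟨k, hk⟩ := exists_nat_ge (max K (max C (max (1 / δ₁) (1 / δ₂))))
  have hk1 : K ≤ k := (le_max_left _ _).trans hk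
  have hk2 : C ≤ k := ((le_max_left _ _).trans (le_max_right _ _)).trans hk
  have hk3 : 1 / δ₁ ≤ k :=
    (((le_max_left _ _).trans (le_max_right _ _)).trans (le_max_right _ _)).trans hk
  have hk4 : 1 / δ₂ ≤ k :=
    (((le_max_right _ _).trans (le_max_right _ _)).trans (le_max_right _ _)).trans hk
  have hk0 : (0 : ℝ) < (k : ℝ) + 1 := by positivity
  have hinv : ∀ δ : ℝ, 0 < δ → 1 / δ ≤ k → 1 / ((k : ℝ) + 1) < δ := by
    intro δ hδ h1
    rw [div_lt_iff₀ hk0]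
    rw [div_le_iff₀ hδ] at h1
    nlinarith
  refine ⟨k, hx, fun w hw => ?_, A, hA3, hAx, fun y hy hyd => ?_⟩
  · have h1 := @hb₂ w (by
      rw [dist_zero_right]
      exact hw.trans (hinv δ₂ hδ₂ hk4))
    rw [hx, mul_one] at h1
    refine h1.trans (mul_le_mul_of_nonneg_right (by linarith) (by positivity))
  · have h1 := @hb₁ y (by
      rw [dist_eq_norm]
      exact hyd.trans (hinv δ₁ hδ₁ hk3)) hy
    refine h1.trans (mul_le_mul_of_nonneg_right (by linarith) (by positivity))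

omit [FiniteDimensional ℝ X] [FiniteDimensional ℝ Y] in
/-- Points of a level set have finite second difference. -/
lemma reg_of_Fk {x : X} {k : ℕ} (hx : x ∈ Fk g k) : Far.Reg x := by
  refine ⟨(k : ℝ) + 1, ?_⟩
  refine Metric.eventually_nhds_iff.2 ⟨1 / ((k : ℝ) + 1), by positivity, fun {w} hw => ?_⟩
  rw [dist_zero_right] at hw
  have h1 := hx.2.1 w hw
  rw [hx.1]
  linarith

end First

end Vale.Agent.Lib.P084.Dens
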