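import Mathlib
import Vale.Agent.Lib.P084.Dens.Chain

/-! Points of density are not porous. -/

namespace Vale.Agent.Lib.P084.Dens

open Set Metric Filter Topology MeasureTheory

section Thick

variable {E : Type*} [NormedAddCommGroup E] [NormedSpace ℝ E] [FiniteDimensional ℝ E]
  [MeasurableSpace E] [BorelSpace E]

/-- A point of density of a set is a point at which the set is not porous. -/
theorem thick_of_density (μ : Measure E) [μ.IsAddHaarMeasure] {F : Set E} {z : E}
    (h : Tendsto (fun r => μ (F ∩ closedBall z r) / μ (closedBall z r)) (𝓝[>] 0) (𝓝 1)) :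
    Thick F z := by
  intro η hη
  obtain ⟨n, hn⟩ : ∃ n, n = Module.finrank ℝ E := ⟨_, rfl⟩
  obtain ⟨q, hq⟩ : ∃ q : ℝ, q = η / (1 + η) := ⟨_, rfl⟩
  have hq0 : 0 < q := by rw [hq]; positivity
  obtain ⟨θ, hθ⟩ : ∃ θ : ℝ, θ = q ^ n := ⟨_, rfl⟩
  have hθ0 : 0 < θ := by rw [hθ]; positivity
  have hlt : (1 : ENNReal) - ENNReal.ofReal θ < 1 :=
    ENNReal.sub_lt_self ENNReal.one_ne_top one_ne_zero (ENNReal.ofReal_pos.2 hθ0).ne'
  have hev := h.eventually (lt_mem_nhds hlt)
  obtain ⟨u, hu, hsub⟩ := (mem_nhdsGT_iff_exists_Ioo_subset).1 hev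
  have hu0 : 0 < u := hu
  refine ⟨u / (1 + η), by positivity, fun r hr hru c hc => ?_⟩
  by_contra hcon
  push Not at hcon
  obtain ⟨R, hR⟩ : ∃ R, R = r * (1 + η) := ⟨_, rfl⟩
  have hR0 : 0 < R := by rw [hR]; positivity
  have hRu : R < u := by
    rw [hR]
    rwa [lt_div_iff₀ (by positivity)] at hru
  have hratio := hsub (⟨hR0, hRu⟩ : R ∈ Ioo 0 u)
  change 1 - ENNReal.ofReal θ < μ (F ∩ closedBall z R) / μ (closedBall z R) at hratio
  have hsmall : closedBall c (η * r) ⊆ closedBall z R := by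
    intro v hv
    rw [mem_closedBall, dist_eq_norm] at hv ⊢
    have e : v - z = (v - c) + (c - z) := by abel
    rw [e, hR]
    have := norm_add_le (v - c) (c - z)
    nlinarith
  have hinter : F ∩ closedBall z R ⊆ closedBall z R \ closedBall c (η * r) := by
    rintro v ⟨hv1, hv2⟩
    refine ⟨hv2, fun hv3 => ?_⟩
    rw [mem_closedBall, dist_eq_norm] at hv3
    have := hcon v hv1
    linarith
  obtain ⟨V₁, hV₁⟩ : ∃ V₁, V₁ = μ (closedBall (0 : E) 1) := ⟨_, rfl⟩
  have hV₁0 : V₁ ≠ 0 := by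
    rw [hV₁]
    exact (measure_closedBall_pos μ 0 one_pos).ne'
  have hV₁t : V₁ ≠ ⊤ := by
    rw [hV₁]
    exact measure_closedBall_lt_top.ne
  have hV : μ (closedBall z R) = ENNReal.ofReal (R ^ n) * V₁ := by
    rw [hn, hV₁]
    exact Measure.addHaar_closedBall' μ z hR0.le
  have hSm : μ (closedBall c (η * r)) = ENNReal.ofReal θ * μ (closedBall z R) := by
    rw [hV, Measure.addHaar_closedBall' μ c (by positivity), ← hn, ← hV₁, ← mul_assoc,
      ← ENNReal.ofReal_mul hθ0.le]
    congr 2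
    rw [hθ, ← mul_pow, hq, hR]
    congr 1
    field_simp
  have hVt : μ (closedBall z R) ≠ ⊤ := measure_closedBall_lt_top.ne
  have hV0 : μ (closedBall z R) ≠ 0 := (measure_closedBall_pos μ z hR0).ne'
  have h1 : μ (F ∩ closedBall z R) ≤ (1 - ENNReal.ofReal θ) * μ (closedBall z R) := by
    refine (measure_mono hinter).trans ?_
    rw [measure_diff hsmall measurableSet_closedBall.nullMeasurableSet (ne_top_of_le_ne_top hVt
      (measure_mono hsmall)), hSm, ENNReal.sub_mul (fun _ _ => hVt), one_mul]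
  have h2 : μ (F ∩ closedBall z R) / μ (closedBall z R) ≤ 1 - ENNReal.ofReal θ := by
    rwa [ENNReal.div_le_iff hV0 hVt]
  exact absurd hratio (not_lt.2 h2)

end Thick

end Vale.Agent.Lib.P084.Dens
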