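import Mathlib
import Vale.Agent.Lib.P084.Dens.Thick

/-! Lipschitz estimates from one-point second order estimates, and a Sard type argument for the
gradient map on level sets. -/

namespace Vale.Agent.Lib.P084.Dens

open Set Metric Filter Topology MeasureTheory

section Lip

variable {E W : Type*} [NormedAddCommGroup E] [NormedSpace ℝ E] [NormedAddCommGroup W]
  [NormedSpace ℝ W]

/-- The two point estimate. -/
lemma two_point {F : Set E} {T : E → W} {B : E → E →L[ℝ] W} {C δ : ℝ} (hC : 0 ≤ C)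
    (hq : ∀ x ∈ F, ∀ y, ‖y - x‖ < δ → ‖T y - T x - B x (y - x)‖ ≤ C * ‖y - x‖ ^ 2)
    {x₁ x₂ : E} (h₁ : x₁ ∈ F) (h₂ : x₂ ∈ F) (hd : ‖x₁ - x₂‖ < δ / 2) :
    ‖B x₁ - B x₂‖ ≤ 6 * C * ‖x₁ - x₂‖ := by
  obtain ⟨d, hdd⟩ : ∃ d, d = ‖x₁ - x₂‖ := ⟨_, rfl⟩
  rw [← hdd] at hd ⊢
  rcases (norm_nonneg (x₁ - x₂)).eq_or_lt with h0 | hdpos
  · have e : x₁ = x₂ := by
      rw [eq_comm, norm_eq_zero, sub_eq_zero] at h0
      exact h0
    rw [e, sub_self, norm_zero]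
    rw [hdd, ← h0]
    simp
  rw [← hdd] at hdpos
  have hsmall : ∀ v : E, ‖v‖ = d → ‖(B x₁ - B x₂) v‖ ≤ 6 * C * d ^ 2 := by
    intro v hv
    have a1 := hq x₂ h₂ (x₂ + v) (by
      rw [add_sub_cancel_left, hv]
      linarith)
    have n2 : ‖x₂ - x₁‖ = d := by rw [norm_sub_rev, hdd]
    have a3 := hq x₁ h₁ x₂ (by rw [n2]; linarith)
    have n3 : ‖x₂ + v - x₁‖ ≤ 2 * d := by
      have e : x₂ + v - x₁ = (x₂ - x₁) + v := by abel
      rw [e]
      have := norm_add_le (x₂ - x₁) v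
      linarith
    have a2 := hq x₁ h₁ (x₂ + v) (by linarith)
    rw [add_sub_cancel_left, hv] at a1
    rw [n2] at a3
    have a4 : C * ‖x₂ + v - x₁‖ ^ 2 ≤ C * (2 * d) ^ 2 :=
      mul_le_mul_of_nonneg_left (pow_le_pow_left₀ (norm_nonneg _) n3 2) hC
    have e : (B x₁ - B x₂) v = (T (x₂ + v) - T x₂ - B x₂ v) - (T (x₂ + v) - T x₁ - B x₁ (x₂ + v - x₁)) +
        (T x₂ - T x₁ - B x₁ (x₂ - x₁)) := by
      simp only [_root_.sub_apply, map_sub, map_add]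
      abel
    rw [e]
    refine (norm_add_le _ _).trans ?_
    have a5 := norm_sub_le (T (x₂ + v) - T x₂ - B x₂ v) (T (x₂ + v) - T x₁ - B x₁ (x₂ + v - x₁))
    nlinarith
  refine (B x₁ - B x₂).opNorm_le_bound (by positivity) fun v => ?_
  by_cases hv0 : v = 0
  · simp [hv0]
  have hvn : 0 < ‖v‖ := norm_pos_iff.2 hv0
  have h1 := hsmall ((d / ‖v‖) • v) (by
    rw [norm_smul, Real.norm_of_nonneg (by positivity)]
    field_simp)
  rw [map_smul, norm_smul, Real.norm_of_nonneg (by positivity)] at h1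
  have h2 : d / ‖v‖ * ‖(B x₁ - B x₂) v‖ * (‖v‖ / d) = ‖(B x₁ - B x₂) v‖ := by
    field_simp
  have h3 := mul_le_mul_of_nonneg_right h1 (by positivity : 0 ≤ ‖v‖ / d)
  rw [h2] at h3
  refine h3.trans (le_of_eq ?_)
  field_simp

/-- The Lipschitz estimate on the whole of a level set. -/
lemma lip_of_quad {F : Set E} {T : E → W} {B : E → E →L[ℝ] W} {C δ M : ℝ} (hC : 0 ≤ C) (hδ : 0 < δ)
    (hM : 0 ≤ M) (hq : ∀ x ∈ F, ∀ y, ‖y - x‖ < δ → ‖T y - T x - B x (y - x)‖ ≤ C * ‖y - x‖ ^ 2)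
    (hb : ∀ x ∈ F, ‖B x‖ ≤ M) {x₁ x₂ : E} (h₁ : x₁ ∈ F) (h₂ : x₂ ∈ F) :
    ‖B x₁ - B x₂‖ ≤ (6 * C + 4 * M / δ) * ‖x₁ - x₂‖ := by
  have hq0 : 0 ≤ 4 * M / δ := by positivity
  have hn := norm_nonneg (x₁ - x₂)
  by_cases hd : ‖x₁ - x₂‖ < δ / 2
  · have := two_point hC hq h₁ h₂ hd
    nlinarith
  · push Not at hd
    have h1 : ‖B x₁ - B x₂‖ ≤ M + M :=
      (norm_sub_le _ _).trans (add_le_add (hb _ h₁) (hb _ h₂))
    have h2 : 4 * M / δ * (δ / 2) = M + M := by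
      field_simp
      ring
    have h3 : 4 * M / δ * (δ / 2) ≤ 4 * M / δ * ‖x₁ - x₂‖ := mul_le_mul_of_nonneg_left hd hq0
    nlinarith

end Lip

section Sard

variable {X Y : Type*} [NormedAddCommGroup X] [NormedSpace ℝ X] [NormedAddCommGroup Y]
  [NormedSpace ℝ Y] [FiniteDimensional ℝ X] [FiniteDimensional ℝ Y]

/-- **The Sard step.**  If the gradient map `z ↦ ‖z‖ • c z` of the norm on `W` covers an open set,
`W` being a countable union of sets on which `c` and `a` are Lipschitz, then there is a point of one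
of these sets, not porous in it, at which `c` and `a` are differentiable relative to the set and where
the derivative of `c` is nondegenerate on the tangent hyperplane. -/
theorem exists_density_point {W' : Set X} {Fs : ℕ → Set X} (hcover : W' ⊆ ⋃ k, Fs k)
    (hsub : ∀ k, Fs k ⊆ W') {c : X → StrongDual ℝ X} {a : X → X →L[ℝ] Y} {L : ℕ → NNReal}
    (hc : ∀ k, ∀ z₁ ∈ Fs k, ∀ z₂ ∈ Fs k, ‖c z₁ - c z₂‖ ≤ L k * ‖z₁ - z₂‖)
    (ha : ∀ k, ∀ z₁ ∈ Fs k, ∀ z₂ ∈ Fs k, ‖a z₁ - a z₂‖ ≤ L k * ‖z₁ - z₂‖)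
    (hN : ∀ z ∈ W', HasFDerivAt (fun y : X => ‖y‖) (c z) z) (hbd : ∀ z ∈ W', ‖z‖ ≤ 2)
    (hc1 : ∀ z ∈ W', ‖c z‖ ≤ 1) {O : Set (StrongDual ℝ X)} (hO : IsOpen O) (hne : O.Nonempty)
    (hOsub : O ⊆ (fun z => ‖z‖ • c z) '' W') :
    ∃ k, ∃ z ∈ Fs k, Thick (Fs k) z ∧ ∃ (H : X →L[ℝ] X →L[ℝ] ℝ) (B : X →L[ℝ] X →L[ℝ] Y),
      HasFDerivWithinAt c H (Fs k) z ∧ HasFDerivWithinAt a B (Fs k) z ∧
        ∀ w, c z w = 0 → H w = 0 → w = 0 := by
  classical
  by_contra hcon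
  push Not at hcon
  let _ : MeasurableSpace X := borel X
  have _ : BorelSpace X := ⟨rfl⟩
  have hμ : Measure.IsAddHaarMeasure (μH[(Module.finrank ℝ X : ℝ)] : Measure X) :=
    isAddHaarMeasure_hausdorffMeasure
  obtain ⟨μ, hμd⟩ : ∃ μ : Measure X, μ = μH[(Module.finrank ℝ X : ℝ)] := ⟨_, rfl⟩
  rw [← hμd] at hμ
  have hfr : Module.finrank ℝ (StrongDual ℝ X) = Module.finrank ℝ X := by
    rw [← Subspace.dual_finrank_eq (K := ℝ) (V := X)]
    exact (LinearMap.toContinuousLinearMap (𝕜 := ℝ) (E := X) (F' := ℝ)).finrank_eq.symm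
  obtain ⟨e⟩ : Nonempty (StrongDual ℝ X ≃L[ℝ] X) := ⟨ContinuousLinearEquiv.ofFinrankEq hfr⟩
  obtain ⟨f, hf⟩ : ∃ f : X → X, f = fun z => e (‖z‖ • c z) := ⟨_, rfl⟩
  have hnull : ∀ k, μ (f '' Fs k) = 0 := by
    intro k
    have hlipc : LipschitzOnWith (L k) c (Fs k) := by
      refine LipschitzOnWith.of_dist_le_mul fun z₁ h₁ z₂ h₂ => ?_
      rw [dist_eq_norm, dist_eq_norm]
      exact hc k z₁ h₁ z₂ h₂
    have hlipa : LipschitzOnWith (L k) a (Fs k) := by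
      refine LipschitzOnWith.of_dist_le_mul fun z₁ h₁ z₂ h₂ => ?_
      rw [dist_eq_norm, dist_eq_norm]
      exact ha k z₁ h₁ z₂ h₂
    have hae := (hlipc.ae_differentiableWithinAt_of_mem (μ := μ)).and
      ((hlipa.ae_differentiableWithinAt_of_mem (μ := μ)).and
        (ae_imp_of_ae_restrict (Besicovitch.ae_tendsto_measure_inter_div μ (Fs k))))
    obtain ⟨N, hNd⟩ : ∃ N : Set X, N = Fs k ∩ {z | ¬ ((z ∈ Fs k → DifferentiableWithinAt ℝ c (Fs k) z) ∧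
        (z ∈ Fs k → DifferentiableWithinAt ℝ a (Fs k) z) ∧
        (z ∈ Fs k → Tendsto (fun r => μ (Fs k ∩ closedBall z r) / μ (closedBall z r)) (𝓝[>] 0) (𝓝 1)))} :=
      ⟨_, rfl⟩
    have hNnull : μ N = 0 := by
      refine measure_mono_null ?_ (ae_iff.1 hae)
      rw [hNd]
      exact inter_subset_right
    obtain ⟨D, hDd⟩ : ∃ D : Set X, D = Fs k \ N := ⟨_, rfl⟩
    have hcov : Fs k ⊆ D ∪ N := by
      intro z hz
      by_cases hzN : z ∈ N
      · exact Or.inr hzN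
      · exact Or.inl (by rw [hDd]; exact ⟨hz, hzN⟩)
    -- the map is Lipschitz on the level set
    have hflip : LipschitzOnWith (‖(e : StrongDual ℝ X →L[ℝ] X)‖₊ * Real.toNNReal (2 * L k + 1)) f (Fs k) := by
      have hG : LipschitzOnWith (Real.toNNReal (2 * L k + 1)) (fun z : X => ‖z‖ • c z) (Fs k) := by
        refine LipschitzOnWith.of_dist_le_mul fun z₁ h₁ z₂ h₂ => ?_
        rw [dist_eq_norm, dist_eq_norm, Real.coe_toNNReal _ (by positivity)]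
        have e1 : ‖z₁‖ • c z₁ - ‖z₂‖ • c z₂ = ‖z₁‖ • (c z₁ - c z₂) + (‖z₁‖ - ‖z₂‖) • c z₂ := by
          module
        rw [e1]
        refine (norm_add_le _ _).trans ?_
        rw [norm_smul, norm_smul, norm_norm, Real.norm_eq_abs]
        have h3 : ‖z₁‖ * ‖c z₁ - c z₂‖ ≤ 2 * (L k * ‖z₁ - z₂‖) :=
          mul_le_mul (hbd _ (hsub k h₁)) (hc k _ h₁ _ h₂) (norm_nonneg _) (by norm_num)
        have h4 : |‖z₁‖ - ‖z₂‖| * ‖c z₂‖ ≤ ‖z₁ - z₂‖ * 1 :=
          mul_le_mul (abs_norm_sub_norm_le _ _) (hc1 _ (hsub k h₂)) (norm_nonneg _) (norm_nonneg _)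
        linarith
      rw [hf]
      exact (e : StrongDual ℝ X →L[ℝ] X).lipschitz.comp_lipschitzOnWith hG
    have hfN : μ (f '' N) = 0 := by
      have hNsub : N ⊆ Fs k := by
        rw [hNd]
        exact inter_subset_left
      have h1 := (hflip.mono hNsub).hausdorffMeasure_image_le (d := (Module.finrank ℝ X : ℝ))
        (Nat.cast_nonneg _)
      rw [← hμd, hNnull, mul_zero] at h1
      exact le_antisymm h1 zero_le
    have hgood : ∀ z ∈ D, z ∈ Fs k ∧ Thick (Fs k) z ∧ DifferentiableWithinAt ℝ c (Fs k) z ∧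
        DifferentiableWithinAt ℝ a (Fs k) z := by
      intro z hz
      rw [hDd, hNd] at hz
      obtain ⟨hz1, hz2⟩ := hz
      have hz3 : (z ∈ Fs k → DifferentiableWithinAt ℝ c (Fs k) z) ∧
          (z ∈ Fs k → DifferentiableWithinAt ℝ a (Fs k) z) ∧
          (z ∈ Fs k → Tendsto (fun r => μ (Fs k ∩ closedBall z r) / μ (closedBall z r)) (𝓝[>] 0) (𝓝 1)) := by
        by_contra h
        exact hz2 ⟨hz1, h⟩
      exact ⟨hz1, thick_of_density μ (hz3.2.2 hz1), hz3.1 hz1, hz3.2.1 hz1⟩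
    have hDsub : D ⊆ Fs k := by
      rw [hDd]
      exact diff_subset
    have hderiv : ∀ z ∈ D, ∃ F' : X →L[ℝ] X, HasFDerivWithinAt f F' D z ∧ F'.det = 0 := by
      intro z hz
      obtain ⟨hz1, hz2, hz3, hz4⟩ := hgood z hz
      obtain ⟨H, hH⟩ := hz3
      obtain ⟨B, hB⟩ := hz4
      obtain ⟨w, hw1, hw2, hw3⟩ := hcon k z hz1 hz2 H B hH hB
      have h3 : HasFDerivWithinAt (fun y : X => ‖y‖ • c y) (‖z‖ • H + (c z).smulRight (c z)) (Fs k) z :=
        (hN z (hsub k hz1)).hasFDerivWithinAt.smul hH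
      have h4 : HasFDerivWithinAt f ((e : StrongDual ℝ X →L[ℝ] X).comp
          (‖z‖ • H + (c z).smulRight (c z))) (Fs k) z := by
        rw [hf]
        exact (e : StrongDual ℝ X →L[ℝ] X).hasFDerivAt.comp_hasFDerivWithinAt z h3
      refine ⟨_, h4.mono hDsub, ?_⟩
      have hker : ((e : StrongDual ℝ X →L[ℝ] X).comp (‖z‖ • H + (c z).smulRight (c z))) w = 0 := by
        simp [hw1, hw2]
      rw [ContinuousLinearMap.det]
      refine LinearMap.det_eq_zero_iff_ker_ne_bot.2 fun hbot => hw3 ?_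
      have hmem : w ∈ LinearMap.ker (((e : StrongDual ℝ X →L[ℝ] X).comp
          (‖z‖ • H + (c z).smulRight (c z))) : X →ₗ[ℝ] X) := by
        rw [LinearMap.mem_ker]
        exact hker
      rw [hbot] at hmem
      simpa using hmem
    choose! F' hF'1 hF'2 using hderiv
    have hfD : μ (f '' D) = 0 :=
      addHaar_image_eq_zero_of_det_fderivWithin_eq_zero μ hF'1 hF'2
    refine measure_mono_null (image_mono hcov) ?_
    rw [image_union]
    exact measure_union_null hfD hfN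
  have hall : μ (f '' ⋃ k, Fs k) = 0 := by
    rw [image_iUnion]
    exact measure_iUnion_null hnull
  -- the image contains an open set
  have hopen : IsOpen (e '' O) := e.toHomeomorph.isOpenMap _ hO
  have hsubs : e '' O ⊆ f '' ⋃ k, Fs k := by
    rintro _ ⟨ψ, hψ, rfl⟩
    obtain ⟨z, hz, rfl⟩ := hOsub hψ
    refine ⟨z, hcover hz, ?_⟩
    rw [hf]
  obtain ⟨ψ, hψ⟩ := hne
  have hpos := hopen.measure_pos μ ⟨e ψ, mem_image_of_mem _ hψ⟩
  exact hpos.ne' (measure_mono_null hsubs hall)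

end Sard

end Vale.Agent.Lib.P084.Dens
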