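import Mathlib
import Vale.Agent.Lib.P084.Dens.First
import Vale.Agent.Lib.P084.Dens.Sard
import Vale.Agent.Lib.P084.Dens.Euler

/-! The level sets on the cone over a patch of points of finite second difference. -/

namespace Vale.Agent.Lib.P084.Dens

open Set Metric Filter Topology
open Vale.Agent.Lib.P084 Vale.Agent.Lib.P084.Str

section Unique

variable {X Y : Type*} [NormedAddCommGroup X] [NormedSpace ℝ X]
  [NormedAddCommGroup Y] [NormedSpace ℝ Y] {g : X → Y} {h : Y → X} {x₀ : X} {A A' : X →L[ℝ] Y}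

/-- The first order approximation is unique. -/
lemma A_unique (hd : DifferentiableAt ℝ (fun z : X => ‖z‖) x₀) (hx₀ : ‖x₀‖ = 1)
    (hA : A x₀ = g x₀) (hA' : A' x₀ = g x₀) (hO : BigO g x₀ A) (hO' : BigO g x₀ A') : A = A' := by
  have hself : chi x₀ x₀ = 1 := chi_self_unit hd hx₀
  have htan : ∀ w, chi x₀ w = 0 → A w = A' w := by
    intro w hw
    have h1 := image_deriv' hd hx₀ hA hO hw (0 : Y)
    have h2 := image_deriv' hd hx₀ hA' hO' hw (0 : Y)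
    exact h1.unique h2
  refine ContinuousLinearMap.ext fun z => ?_
  have hz : chi x₀ (z - chi x₀ z • x₀) = 0 := by
    rw [map_sub, map_smul, hself]
    simp
  have h1 := htan _ hz
  simp only [map_sub, map_smul, hA, hA'] at h1
  exact sub_left_injective h1

variable [FiniteDimensional ℝ X] [FiniteDimensional ℝ Y]

/-- A selection of the first order approximation, independent of the level. -/
lemma exists_sel : ∃ Asel : X → X →L[ℝ] Y, ∀ x k, x ∈ Fk g k → ‖Asel x‖ ≤ 3 ∧ Asel x x = g x ∧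
    ∀ y, ‖y‖ = 1 → ‖y - x‖ < 1 / ((k : ℝ) + 1) → ‖g y - Asel x y‖ ≤ ((k : ℝ) + 1) * ‖y - x‖ ^ 2 := by
  have hsel : ∀ x, ∃ A : X →L[ℝ] Y, ∀ k, x ∈ Fk g k → ‖A‖ ≤ 3 ∧ A x = g x ∧
      ∀ y, ‖y‖ = 1 → ‖y - x‖ < 1 / ((k : ℝ) + 1) → ‖g y - A y‖ ≤ ((k : ℝ) + 1) * ‖y - x‖ ^ 2 := by
    intro x
    by_cases hx : ∃ k₀, x ∈ Fk g k₀
    · obtain ⟨k₀, hk₀⟩ := hx
      obtain ⟨A₀, h1, h2, h3⟩ := hk₀.2.2
      refine ⟨A₀, fun k hk => ?_⟩
      obtain ⟨A, h4, h5, h6⟩ := hk.2.2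
      have hO : ∀ (B : X →L[ℝ] Y) (j : ℕ), (∀ y, ‖y‖ = 1 → ‖y - x‖ < 1 / ((j : ℝ) + 1) →
          ‖g y - B y‖ ≤ ((j : ℝ) + 1) * ‖y - x‖ ^ 2) → BigO g x B := by
        intro B j hB
        refine ⟨(j : ℝ) + 1, Metric.eventually_nhds_iff.2 ⟨1 / ((j : ℝ) + 1), by positivity,
          fun {y} hy hy1 => hB y hy1 (by rwa [dist_eq_norm] at hy)⟩⟩
      have hd := reg_differentiable hk.1 (reg_of_Fk hk)
      have he : A = A₀ := A_unique hd hk.1 h5 h2 (hO A k h6) (hO A₀ k₀ h3)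
      rw [← he]
      exact ⟨h4, h5, h6⟩
    · exact ⟨0, fun k hk => absurd ⟨k, hk⟩ hx⟩
  choose Asel hAsel using hsel
  exact ⟨Asel, fun x k hk => hAsel x k hk⟩

end Unique

section Cone

variable {X Y : Type*} [NormedAddCommGroup X] [NormedSpace ℝ X]
  [NormedAddCommGroup Y] [NormedSpace ℝ Y] {g : X → Y} {h : Y → X}

/-- The second order estimate of the norm at a point of a level set. -/
lemma cone_N' {z z' : X} (hz : z ≠ 0) {K δ : ℝ} (hK0 : 0 ≤ K)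
    (hself : chi (‖z‖⁻¹ • z) (‖z‖⁻¹ • z) = 1)
    (hs : 3 / 4 ≤ ‖z‖) (hd : ‖z' - z‖ ≤ δ / 2)
    (hx : ∀ w : X, ‖w‖ < δ → ‖‖z‖⁻¹ • z + w‖ + ‖‖z‖⁻¹ • z - w‖ - 2 ≤ K * ‖w‖ ^ 2) (hδ : 0 < δ) :
    ‖‖z'‖ - ‖z‖ - chi z (z' - z)‖ ≤ 10 * K * ‖z' - z‖ ^ 2 := by
  obtain ⟨s, hsd⟩ : ∃ s, s = ‖z‖ := ⟨_, rfl⟩
  rw [← hsd] at hs hx hself ⊢
  have hs0 : 0 < s := by linarith
  obtain ⟨x, hxd⟩ : ∃ x, x = s⁻¹ • z := ⟨_, rfl⟩
  rw [← hxd] at hx hself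
  have hx1 : ‖x‖ = 1 := by
    rw [hxd, hsd]
    exact unit_of_ne hz
  obtain ⟨w, hwd⟩ : ∃ w, w = z' - z := ⟨_, rfl⟩
  rw [← hwd] at hd ⊢
  obtain ⟨u, hud⟩ : ∃ u, u = s⁻¹ • w := ⟨_, rfl⟩
  have hinv : s⁻¹ ≤ 4 / 3 := by
    rw [inv_le_comm₀ hs0 (by norm_num)]
    linarith
  have hun : ‖u‖ = s⁻¹ * ‖w‖ := by
    rw [hud, norm_smul, norm_inv, Real.norm_of_nonneg hs0.le]
  have hwn : 0 ≤ ‖w‖ := norm_nonneg w
  have hu1 : ‖u‖ < δ := by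
    rw [hun]
    have h1 : s⁻¹ * ‖w‖ ≤ 4 / 3 * (δ / 2) := mul_le_mul hinv hd hwn (by norm_num)
    linarith
  have hzx : z = s • x := by
    rw [hxd, smul_smul, mul_inv_cancel₀ hs0.ne', one_smul]
  have hwu : w = s • u := by
    rw [hud, smul_smul, mul_inv_cancel₀ hs0.ne', one_smul]
  have hz'e : z' = s • (x + u) := by
    rw [smul_add, ← hzx, ← hwu, hwd]
    abel
  have hchi : chi z = chi x := by
    rw [hxd, hsd]
    exact (chi_unit hz).symm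
  have hval : ‖z'‖ - s - chi z w = s * (‖x + u‖ - 1 - chi x u) := by
    rw [hz'e, norm_smul, Real.norm_of_nonneg hs0.le, hchi, hwu, map_smul, smul_eq_mul]
    ring
  have hlow : 0 ≤ ‖x + u‖ - 1 - chi x u := by
    have := chi_le x (x + u)
    rw [map_add, hself] at this
    linarith
  have hup : ‖x + u‖ - 1 - chi x u ≤ K * ‖u‖ ^ 2 := by
    have h1 := hx u hu1
    have h2 := chi_le x (x - u)
    rw [map_sub, hself] at h2
    linarith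
  rw [hval, Real.norm_eq_abs, abs_of_nonneg (by positivity)]
  have h3 : s * (K * ‖u‖ ^ 2) = s⁻¹ * (K * ‖w‖ ^ 2) := by
    rw [hun]
    field_simp
  have h4 : s * (‖x + u‖ - 1 - chi x u) ≤ s⁻¹ * (K * ‖w‖ ^ 2) := by
    rw [← h3]
    exact mul_le_mul_of_nonneg_left hup hs0.le
  refine h4.trans ?_
  have h5 : 0 ≤ K * ‖w‖ ^ 2 := by positivity
  nlinarith

/-- Elementary facts on a small ball around a unit vector. -/
lemma ball_facts {e z : X} (he : ‖e‖ = 1) {r : ℝ} (hz : ‖z - e‖ < min (1 / 4) (r / 4)) :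
    z ≠ 0 ∧ 3 / 4 ≤ ‖z‖ ∧ ‖z‖ ≤ 5 / 4 ∧ ‖‖z‖⁻¹ • z‖ = 1 ∧ ‖‖z‖⁻¹ • z - e‖ < r := by
  have hz1 : ‖z - e‖ < 1 / 4 := hz.trans_le (min_le_left _ _)
  have hz2 : ‖z - e‖ < r / 4 := hz.trans_le (min_le_right _ _)
  have h1 : |‖z‖ - ‖e‖| ≤ ‖z - e‖ := abs_norm_sub_norm_le z e
  rw [he] at h1
  have h2 := abs_le.1 h1
  have h3 : 3 / 4 ≤ ‖z‖ := by linarith [h2.1]
  have h4 : ‖z‖ ≤ 5 / 4 := by linarith [h2.2]
  have hz0 : z ≠ 0 := by
    intro h0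
    rw [h0, norm_zero] at h3
    norm_num at h3
  refine ⟨hz0, h3, h4, unit_of_ne hz0, ?_⟩
  have h5 := normalize_dist (v₀ := e) hz0
  rw [he, inv_one, one_smul] at h5
  refine h5.trans_lt ?_
  rw [div_lt_iff₀ (by linarith)]
  have := norm_nonneg (z - e)
  nlinarith

end Cone

end Vale.Agent.Lib.P084.Dens
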