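import Mathlib
import Vale.Agent.Lib.P084.Dens.Level

/-! The existence of a point with second order expansions near an exposed point all of whose
neighbours have finite second difference. -/

namespace Vale.Agent.Lib.P084.Dens

open Set Metric Filter Topology
open Vale.Agent.Lib.P084 Vale.Agent.Lib.P084.Str

section Aux

variable {E F : Type*} [NormedAddCommGroup E] [NormedSpace ℝ E] [NormedAddCommGroup F]
  [NormedSpace ℝ F]

lemma est_of_within {f : E → F} {f' : E →L[ℝ] F} {s : Set E} {x : E}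
    (h : HasFDerivWithinAt f f' s x) {ε : ℝ} (hε : 0 < ε) :
    ∃ ρ : ℝ, 0 < ρ ∧ ∀ y ∈ s, ‖y - x‖ < ρ → ‖f y - f x - f' (y - x)‖ ≤ ε * ‖y - x‖ := by
  have h1 := Asymptotics.isLittleO_iff.1 h.isLittleO hε
  rw [eventually_nhdsWithin_iff, Metric.eventually_nhds_iff] at h1
  obtain ⟨ρ, hρ, hb⟩ := h1
  exact ⟨ρ, hρ, fun y hy hyd => hb (by rwa [dist_eq_norm]) hy⟩

/-- A functional attains its norm on the sphere. -/
lemma exists_norming [FiniteDimensional ℝ E] [Nontrivial E] (ψ : StrongDual ℝ E) :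
    ∃ x : E, ‖x‖ = 1 ∧ ψ x = ‖ψ‖ := by
  have hK : IsCompact (sphere (0 : E) 1) := isCompact_sphere _ _
  obtain ⟨v₀, hv₀⟩ := exists_norm_eq E (zero_le_one (α := ℝ))
  have hne : (sphere (0 : E) 1).Nonempty := ⟨v₀, by simpa using hv₀⟩
  obtain ⟨x, hx, hmax⟩ := hK.exists_isMaxOn hne ψ.continuous.continuousOn
  have hx1 : ‖x‖ = 1 := by simpa using hx
  refine ⟨x, hx1, ?_⟩
  have hvalle : ψ x ≤ ‖ψ‖ := by
    have := ψ.le_opNorm x
    rw [hx1, mul_one] at this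
    exact (le_abs_self _).trans this
  refine le_antisymm hvalle ?_
  have hval0 : 0 ≤ ψ x := by
    have h1 : ψ (-x) ≤ ψ x := hmax (by simpa using hx1)
    rw [map_neg] at h1
    linarith
  refine ψ.opNorm_le_bound hval0 fun v => ?_
  by_cases hv : v = 0
  · simp [hv]
  have hvn : 0 < ‖v‖ := norm_pos_iff.2 hv
  have hu : ‖‖v‖⁻¹ • v‖ = 1 := unit_of_ne hv
  have h1 : ψ (‖v‖⁻¹ • v) ≤ ψ x := hmax (by simpa using hu)
  have h2 : ψ (-(‖v‖⁻¹ • v)) ≤ ψ x := hmax (by simpa using hu)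
  rw [map_smul, smul_eq_mul] at h1
  rw [map_neg, map_smul, smul_eq_mul] at h2
  rw [Real.norm_eq_abs, abs_le]
  have h3 : ψ v ≤ ψ x * ‖v‖ := by
    rw [inv_mul_le_iff₀ hvn] at h1
    linarith
  have h4 : -(ψ v) ≤ ψ x * ‖v‖ := by
    have : -(‖v‖⁻¹ * ψ v) = ‖v‖⁻¹ * (-ψ v) := by ring
    rw [this, inv_mul_le_iff₀ hvn] at h2
    linarith
  constructor <;> linarith

/-- Maximisers of functionals near an exposing functional are near the exposed point. -/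
lemma exposed_near [FiniteDimensional ℝ E] {e : E} {ψ₀ : StrongDual ℝ E} (hψ₁ : ‖ψ₀‖ ≤ 1)
    (hψe : ψ₀ e = 1) (he : ‖e‖ = 1) (hexp : ∀ x, ‖x‖ = 1 → ψ₀ x = 1 → x = e) {ρ : ℝ} (hρ : 0 < ρ) :
    ∃ τ : ℝ, 0 < τ ∧ ∀ ψ : StrongDual ℝ E, ‖ψ - ψ₀‖ < τ → ∀ x, ‖x‖ = 1 → ψ x = ‖ψ‖ → ‖x - e‖ < ρ := by
  obtain ⟨K, hKd⟩ : ∃ K : Set E, K = sphere (0 : E) 1 ∩ {x | ρ ≤ ‖x - e‖} := ⟨_, rfl⟩
  have hKc : IsCompact K := by
    rw [hKd]
    refine (isCompact_sphere _ _).inter_right ?_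
    exact isClosed_le continuous_const (by fun_prop)
  have hle : ∀ x : E, ‖x‖ = 1 → ψ₀ x ≤ 1 := by
    intro x hx
    have h1 := ψ₀.le_opNorm x
    rw [hx, mul_one, Real.norm_eq_abs] at h1
    exact (le_abs_self _).trans (h1.trans hψ₁)
  have hK : ∃ m : ℝ, 0 < m ∧ ∀ x ∈ K, ψ₀ x ≤ 1 - m := by
    rcases K.eq_empty_or_nonempty with h0 | hne
    · exact ⟨1, one_pos, fun x hx => by rw [h0] at hx; exact absurd hx (notMem_empty x)⟩
    · obtain ⟨x, hx, hmax⟩ := hKc.exists_isMaxOn hne ψ₀.continuous.continuousOn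
      have hx' := hx
      rw [hKd] at hx'
      have hx1 : ‖x‖ = 1 := by simpa using hx'.1
      have hne' : ψ₀ x ≠ 1 := by
        intro h1
        have := hexp x hx1 h1
        have h2 : ρ ≤ ‖x - e‖ := hx'.2
        rw [this, sub_self, norm_zero] at h2
        linarith
      have hlt : ψ₀ x < 1 := lt_of_le_of_ne (hle x hx1) hne'
      exact ⟨1 - ψ₀ x, by linarith, fun y hy => by
        have := hmax hy
        simp only [mem_setOf_eq] at this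
        linarith⟩
  obtain ⟨m, hm, hKm⟩ := hK
  refine ⟨m / 2, by positivity, fun ψ hψ x hx hxψ => ?_⟩
  by_contra hcon
  push Not at hcon
  have hxK : x ∈ K := by
    rw [hKd]
    exact ⟨by simpa using hx, hcon⟩
  have h1 := hKm x hxK
  have h2 : ψ e ≤ ‖ψ‖ := by
    have := ψ.le_opNorm e
    rw [he, mul_one, Real.norm_eq_abs] at this
    exact (le_abs_self _).trans this
  have h3 : |(ψ - ψ₀) e| ≤ ‖ψ - ψ₀‖ := by
    have := (ψ - ψ₀).le_opNorm e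
    rwa [he, mul_one, Real.norm_eq_abs] at this
  have h4 : |(ψ - ψ₀) x| ≤ ‖ψ - ψ₀‖ := by
    have := (ψ - ψ₀).le_opNorm x
    rwa [hx, mul_one, Real.norm_eq_abs] at this
  simp only [_root_.sub_apply] at h3 h4
  have h5 := (abs_le.1 h3).1
  have h6 := (abs_le.1 h4).2
  linarith

end Aux

section Patch

variable {X Y : Type*} [NormedAddCommGroup X] [NormedSpace ℝ X]
  [NormedAddCommGroup Y] [NormedSpace ℝ Y] {g : X → Y} {h : Y → X}

/-- The norm is differentiable at a point whose normalisation has finite second difference. -/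
lemma hasFDerivAt_of_reg {z : X} (hz : z ≠ 0) (hR : Far.Reg (‖z‖⁻¹ • z)) :
    HasFDerivAt (fun y : X => ‖y‖) (chi z) z := by
  have hn : 0 < ‖z‖ := norm_pos_iff.2 hz
  have hu := unit_of_ne hz
  have hd := reg_differentiable hu hR
  have h1 := (hd.hasFDerivAt.hasFDerivAt_norm_smul_pos hn).differentiableAt
  have e : ‖z‖ • ‖z‖⁻¹ • z = z := by
    rw [smul_smul, mul_inv_cancel₀ hn.ne', one_smul]
  rw [e] at h1
  exact h1.hasFDerivAt

/-- The gradient map covers a neighbourhood of an exposing functional. -/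
lemma gauss_open [FiniteDimensional ℝ X] [Nontrivial X] {e : X} (he : ‖e‖ = 1)
    {ψ₀ : StrongDual ℝ X} (hψ₁ : ‖ψ₀‖ ≤ 1) (hψe : ψ₀ e = 1) (hexp : ∀ x, ‖x‖ = 1 → ψ₀ x = 1 → x = e)
    {ρ r : ℝ} (hρ : 0 < ρ) (hρr : ρ ≤ r) (hR : ∀ x, ‖x‖ = 1 → ‖x - e‖ < r → Far.Reg x) :
    ∃ τ : ℝ, 0 < τ ∧ ball ψ₀ τ ⊆ (fun z : X => ‖z‖ • chi z) '' ball e ρ := by
  obtain ⟨τ₀, hτ₀, hb⟩ := exposed_near hψ₁ hψe he hexp (half_pos hρ)
  have hψ01 : ‖ψ₀‖ = 1 := by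
    refine le_antisymm hψ₁ ?_
    have := ψ₀.le_opNorm e
    rw [he, mul_one, hψe] at this
    simpa using this
  refine ⟨min τ₀ (min (ρ / 2) (1 / 2)), by positivity, fun ψ hψ => ?_⟩
  rw [mem_ball, dist_eq_norm] at hψ
  have h1 : ‖ψ - ψ₀‖ < τ₀ := hψ.trans_le (min_le_left _ _)
  have h2 : ‖ψ - ψ₀‖ < ρ / 2 := hψ.trans_le ((min_le_right _ _).trans (min_le_left _ _))
  have h3 : ‖ψ - ψ₀‖ < 1 / 2 := hψ.trans_le ((min_le_right _ _).trans (min_le_right _ _))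
  have hn : |‖ψ‖ - 1| ≤ ‖ψ - ψ₀‖ := by
    have := abs_norm_sub_norm_le ψ ψ₀
    rwa [hψ01] at this
  have hn0 : 0 < ‖ψ‖ := by
    have := (abs_le.1 hn).1
    linarith
  obtain ⟨x, hx, hxψ⟩ := exists_norming ψ
  have hxe := hb ψ h1 x hx hxψ
  have hx0 : x ≠ 0 := by
    rintro rfl
    simp at hx
  have hRx : Far.Reg x := hR x hx (by linarith)
  have hd := reg_differentiable hx hRx
  have hchi : chi x = ‖ψ‖⁻¹ • ψ := by
    refine functional_eq_of_differentiableAt hd (chi_norm_le x) ?_ hd.fderiv_norm_self ?_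
    · rw [norm_smul, norm_inv, norm_norm, inv_mul_cancel₀ hn0.ne']
    · rw [_root_.smul_apply, hxψ, smul_eq_mul, inv_mul_cancel₀ hn0.ne', hx]
  refine ⟨‖ψ‖ • x, ?_, ?_⟩
  · rw [mem_ball, dist_eq_norm]
    have e1 : ‖ψ‖ • x - e = (‖ψ‖ - 1) • x + (x - e) := by
      module
    rw [e1]
    refine (norm_add_le _ _).trans_lt ?_
    rw [norm_smul, hx, mul_one, Real.norm_eq_abs]
    linarith
  · simp only
    rw [chi_smul hn0, hchi, norm_smul, norm_norm, hx, mul_one, smul_smul, mul_inv_cancel₀ hn0.ne',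
      one_smul]

end Patch

section Level

variable {X Y : Type*} [NormedAddCommGroup X] [NormedSpace ℝ X]
  [NormedAddCommGroup Y] [NormedSpace ℝ Y] {g : X → Y} {h : Y → X}

/-- The level sets on the cone. -/
def coneLevel (g : X → Y) (e : X) (ρ : ℝ) (k : ℕ) : Set X :=
  {z | z ∈ ball e ρ ∧ ‖z‖⁻¹ • z ∈ Fk g k}

/-- The radius of the estimates of level `k`. -/
noncomputable def radK (k : ℕ) : ℝ := min (1 / 8) (3 / (8 * ((k : ℝ) + 1)))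

lemma radK_pos (k : ℕ) : 0 < radK k := by
  unfold radK
  positivity

/-- Elementary facts for the estimates. -/
lemma level_facts {e z y : X} (he : ‖e‖ = 1) {ρ : ℝ} (hρ : ρ ≤ 1 / 8) (hz : z ∈ ball e ρ) {k : ℕ}
    (hy : ‖y - z‖ < radK k) :
    z ≠ 0 ∧ 3 / 4 ≤ ‖z‖ ∧ y ≠ 0 ∧ ‖y‖ ≤ 5 / 4 ∧ ‖‖y‖⁻¹ • y - ‖z‖⁻¹ • z‖ ≤ 8 / 3 * ‖y - z‖ ∧
      ‖y - z‖ ≤ (1 / ((k : ℝ) + 1)) / 2 ∧ ‖‖y‖⁻¹ • y - ‖z‖⁻¹ • z‖ < 1 / ((k : ℝ) + 1) := by
  rw [mem_ball, dist_eq_norm] at hz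
  have hy1 : ‖y - z‖ < 1 / 8 := hy.trans_le (min_le_left _ _)
  have hy2 : ‖y - z‖ < 3 / (8 * ((k : ℝ) + 1)) := hy.trans_le (min_le_right _ _)
  have hk0 : (0 : ℝ) < (k : ℝ) + 1 := by positivity
  have n1 : |‖z‖ - ‖e‖| ≤ ‖z - e‖ := abs_norm_sub_norm_le z e
  rw [he] at n1
  have n2 := abs_le.1 n1
  have n3 : ‖y - e‖ < 1 / 4 := by
    have e1 : y - e = (y - z) + (z - e) := by abel
    rw [e1]
    have := norm_add_le (y - z) (z - e)
    linarith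
  have n4 : |‖y‖ - ‖e‖| ≤ ‖y - e‖ := abs_norm_sub_norm_le y e
  rw [he] at n4
  have n5 := abs_le.1 n4
  have hz3 : 3 / 4 ≤ ‖z‖ := by linarith [n2.1]
  have hy3 : 3 / 4 ≤ ‖y‖ := by linarith [n5.1]
  have hy4 : ‖y‖ ≤ 5 / 4 := by linarith [n5.2]
  have hz0 : z ≠ 0 := by
    intro h0
    rw [h0, norm_zero] at hz3
    norm_num at hz3
  have hy0 : y ≠ 0 := by
    intro h0
    rw [h0, norm_zero] at hy3
    norm_num at hy3
  have h5 : ‖‖y‖⁻¹ • y - ‖z‖⁻¹ • z‖ ≤ 8 / 3 * ‖y - z‖ := by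
    refine (normalize_dist (v₀ := z) hy0).trans ?_
    rw [div_le_iff₀ (by linarith)]
    have := norm_nonneg (y - z)
    nlinarith
  have h6 : 8 / 3 * ‖y - z‖ < 1 / ((k : ℝ) + 1) := by
    have e1 : 1 / ((k : ℝ) + 1) = 8 / 3 * (3 / (8 * ((k : ℝ) + 1))) := by
      field_simp
    rw [e1]
    exact mul_lt_mul_of_pos_left hy2 (by norm_num)
  have h7 : ‖y - z‖ ≤ (1 / ((k : ℝ) + 1)) / 2 := by
    have := norm_nonneg (y - z)
    linarith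
  exact ⟨hz0, hz3, hy0, hy4, h5, h7, h5.trans_lt h6⟩

/-- The estimate of the radial extension. -/
lemma T_est {Asel : X → X →L[ℝ] Y} (hAsel : ∀ x k, x ∈ Fk g k → ‖Asel x‖ ≤ 3 ∧ Asel x x = g x ∧
      ∀ y, ‖y‖ = 1 → ‖y - x‖ < 1 / ((k : ℝ) + 1) → ‖g y - Asel x y‖ ≤ ((k : ℝ) + 1) * ‖y - x‖ ^ 2)
    {e z y : X} (he : ‖e‖ = 1) {ρ : ℝ} (hρ : ρ ≤ 1 / 8) {k : ℕ} (hz : z ∈ coneLevel g e ρ k)
    (hy : ‖y - z‖ < radK k) :
    ‖radial g y - radial g z - Asel (‖z‖⁻¹ • z) (y - z)‖ ≤ (10 * ((k : ℝ) + 1)) * ‖y - z‖ ^ 2 := by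
  obtain ⟨hz0, -, hy0, hy4, h5, -, h7⟩ := level_facts he hρ hz.1 hy
  obtain ⟨-, h2, h3⟩ := hAsel _ k hz.2
  exact cone_T hz0 hy0 h2 (by positivity) (h3 _ (unit_of_ne hy0) h7) hy4 h5

/-- The estimate of the norm. -/
lemma N_est {e z y : X} (he : ‖e‖ = 1) {ρ : ℝ} (hρ : ρ ≤ 1 / 8) {k : ℕ}
    (hz : z ∈ coneLevel g e ρ k) (hy : ‖y - z‖ < radK k) :
    ‖‖y‖ - ‖z‖ - chi z (y - z)‖ ≤ (10 * ((k : ℝ) + 1)) * ‖y - z‖ ^ 2 := by
  obtain ⟨hz0, hz3, -, -, -, h6, -⟩ := level_facts he hρ hz.1 hy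
  have hu := unit_of_ne hz0
  have hself := chi_self_unit (reg_differentiable hu (reg_of_Fk hz.2)) hu
  have h1 := cone_N' (z' := y) hz0 (K := (k : ℝ) + 1) (δ := 1 / ((k : ℝ) + 1)) (by positivity) hself
    hz3 h6 hz.2.2.1 (by positivity)
  exact h1

variable [FiniteDimensional ℝ X] [FiniteDimensional ℝ Y]

/-- **A point with second order expansions.** -/
theorem exists_expansion_point [Nontrivial X] (H : SphereIso g h) {e : X} (he : ‖e‖ = 1)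
    {ψ₀ : StrongDual ℝ X} (hψ₁ : ‖ψ₀‖ ≤ 1) (hψe : ψ₀ e = 1) (hexp : ∀ x, ‖x‖ = 1 → ψ₀ x = 1 → x = e)
    {r : ℝ} (hr : 0 < r) (hR : ∀ x, ‖x‖ = 1 → ‖x - e‖ < r → Far.Reg x) :
    ∃ (z : X) (A : X →L[ℝ] Y) (B : X →L[ℝ] X →L[ℝ] Y) (Q : X →L[ℝ] X →L[ℝ] ℝ),
      ‖z - e‖ < min (1 / 4) (r / 4) ∧ A (‖z‖⁻¹ • z) = g (‖z‖⁻¹ • z) ∧
      Exp2 (radial g) z A B ∧ Exp2 (fun y : X => ‖y‖) z (chi z) Q ∧
      (∀ a b, B a b = B b a) ∧ (∀ a b, Q a b = Q b a) ∧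
      ∀ w, chi z w = 0 → Q w = 0 → w = 0 := by
  obtain ⟨Asel, hAsel⟩ := exists_sel (g := g)
  obtain ⟨ρ, hρd⟩ : ∃ ρ : ℝ, ρ = min (1 / 8) (r / 4) := ⟨_, rfl⟩
  have hρ0 : 0 < ρ := by rw [hρd]; positivity
  have hρ1 : ρ ≤ 1 / 8 := by rw [hρd]; exact min_le_left _ _
  have hρ2 : ρ ≤ r / 4 := by rw [hρd]; exact min_le_right _ _
  have hfacts : ∀ z ∈ ball e ρ, ‖z - e‖ < min (1 / 4) (r / 4) := by
    intro z hz
    rw [mem_ball, dist_eq_norm] at hz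
    refine lt_min (by linarith) (by linarith)
  have hcover : ball e ρ ⊆ ⋃ k, coneLevel g e ρ k := by
    intro z hz
    obtain ⟨-, -, -, h4, h5⟩ := ball_facts he (hfacts z hz)
    obtain ⟨k, hk⟩ := mem_Fk' H h4 (hR _ h4 h5)
    exact mem_iUnion.2 ⟨k, hz, hk⟩
  have hkC : ∀ k : ℕ, (0 : ℝ) ≤ 10 * ((k : ℝ) + 1) := fun k => by positivity
  have hTq : ∀ k : ℕ, ∀ x ∈ coneLevel g e ρ k, ∀ y, ‖y - x‖ < radK k →
      ‖radial g y - radial g x - Asel (‖x‖⁻¹ • x) (y - x)‖ ≤ (10 * ((k : ℝ) + 1)) * ‖y - x‖ ^ 2 :=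
    fun k x hx y hy => T_est hAsel he hρ1 hx hy
  have hNq : ∀ k : ℕ, ∀ x ∈ coneLevel g e ρ k, ∀ y, ‖y - x‖ < radK k →
      ‖‖y‖ - ‖x‖ - chi x (y - x)‖ ≤ (10 * ((k : ℝ) + 1)) * ‖y - x‖ ^ 2 :=
    fun k x hx y hy => N_est he hρ1 hx hy
  obtain ⟨τ, hτ, hball⟩ := gauss_open he hψ₁ hψe hexp (ρ := ρ) (r := r) hρ0 (by linarith) hR
  obtain ⟨k, z, hz, hth, Q, B, hQ, hB, hnd⟩ := exists_density_point (Y := Y) hcover
    (fun k z hz => hz.1) (c := chi) (a := fun z => Asel (‖z‖⁻¹ • z))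
    (L := fun k => Real.toNNReal (6 * (10 * ((k : ℝ) + 1)) + 4 * 3 / radK k))
    (fun k z₁ h₁ z₂ h₂ => by
      rw [Real.coe_toNNReal _ (by have := radK_pos k; positivity)]
      exact lip_of_quad (hkC k) (radK_pos k) (by norm_num) (hNq k)
        (fun x _ => (chi_norm_le x).trans (by norm_num)) h₁ h₂)
    (fun k z₁ h₁ z₂ h₂ => by
      rw [Real.coe_toNNReal _ (by have := radK_pos k; positivity)]
      exact lip_of_quad (hkC k) (radK_pos k) (by norm_num) (hTq k)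
        (fun x hx => (hAsel _ k hx.2).1) h₁ h₂)
    (fun z hz => by
      obtain ⟨h1, -, -, h4, h5⟩ := ball_facts he (hfacts z hz)
      exact hasFDerivAt_of_reg h1 (hR _ h4 h5))
    (fun z hz => by
      obtain ⟨-, -, h3, -, -⟩ := ball_facts he (hfacts z hz)
      linarith)
    (fun z _ => chi_norm_le z) isOpen_ball ⟨ψ₀, mem_ball_self hτ⟩ hball
  refine ⟨z, Asel (‖z‖⁻¹ • z), B, Q, hfacts z hz.1, (hAsel _ k hz.2).2.1, ?_, ?_, ?_, ?_, hnd⟩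
  · intro ε hε
    exact peano_of_chain (hkC k) (radK_pos k) (hTq k) (fun ε hε => est_of_within hB hε) hth hz hε
  · intro ε hε
    exact peano_of_chain (hkC k) (radK_pos k) (hNq k) (fun ε hε => est_of_within hQ hε) hth hz hε
  · exact sym_of_chain (hkC k) (radK_pos k) (hTq k) (fun ε hε => est_of_within hB hε) hth hz
  · exact sym_of_chain (hkC k) (radK_pos k) (hNq k) (fun ε hε => est_of_within hQ hε) hth hz

end Level

end Vale.Agent.Lib.P084.Dens
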