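import Mathlib
import Vale.Agent.Lib.P084.Dens.Point

/-! Good points: second order expansions at a unit vector with positive curvature. -/

namespace Vale.Agent.Lib.P084.Dens

open Set Metric Filter Topology
open Vale.Agent.Lib.P084 Vale.Agent.Lib.P084.Str

section Scale

variable {E W : Type*} [NormedAddCommGroup E] [NormedSpace ℝ E] [NormedAddCommGroup W]
  [NormedSpace ℝ W]

/-- Transfer of an expansion along a ray. -/
lemma exp2_scale {T : E → W} (hom : ∀ c : ℝ, 0 < c → ∀ y, T (c • y) = c • T y) {p : E}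
    {L : E →L[ℝ] W} {B : E →L[ℝ] E →L[ℝ] W} {s : ℝ} (hs : 0 < s) (hz : Exp2 T (s • p) L B) :
    Exp2 T p L (s • B) := by
  intro ε hε
  obtain ⟨ρ, hρ, hb⟩ := hz (ε / s) (by positivity)
  refine ⟨ρ / s, by positivity, fun y hy => ?_⟩
  have e1 : s • y - s • p = s • (y - p) := by rw [smul_sub]
  have h1 := hb (s • y) (by
    rw [e1, norm_smul, Real.norm_of_nonneg hs.le]
    rwa [lt_div_iff₀ hs, mul_comm] at hy)
  rw [e1, hom s hs, hom s hs, norm_smul, Real.norm_of_nonneg hs.le] at h1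
  have e2 : s • T y - s • T p - L (s • (y - p)) - (1 / 2 : ℝ) • B (s • (y - p)) (s • (y - p)) =
      s • (T y - T p - L (y - p) - (1 / 2 : ℝ) • (s • B) (y - p) (y - p)) := by
    simp only [map_smul, _root_.smul_apply]
    module
  rw [e2, norm_smul, Real.norm_of_nonneg hs.le] at h1
  have h2 : ε / s * (s * ‖y - p‖) ^ 2 = s * (ε * ‖y - p‖ ^ 2) := by
    field_simp
  rw [h2] at h1
  exact le_of_mul_le_mul_left h1 hs

end Scale

section Good

variable {X Y : Type*} [NormedAddCommGroup X] [NormedSpace ℝ X]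
  [NormedAddCommGroup Y] [NormedSpace ℝ Y]

/-- **Good points.** -/
structure Good (g : X → Y) (p : X) (A : X →L[ℝ] Y) (BB : X →L[ℝ] X →L[ℝ] Y)
    (HH : X →L[ℝ] X →L[ℝ] ℝ) : Prop where
  unit : ‖p‖ = 1
  reg : Far.Reg p
  Ax : A p = g p
  T_exp : Exp2 (radial g) p A BB
  N_exp : Exp2 (fun y : X => ‖y‖) p (chi p) HH
  B_sym : ∀ a b, BB a b = BB b a
  B_x : ∀ b, BB p b = 0
  H_sym : ∀ a b, HH a b = HH b a
  H_x : ∀ b, HH p b = 0
  H_pos : ∀ w, chi p w = 0 → w ≠ 0 → 0 < HH w w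

variable {g : X → Y} {h : Y → X}

/-- The expansion on the sphere. -/
lemma Good.T_unit {p : X} {A : X →L[ℝ] Y} {BB : X →L[ℝ] X →L[ℝ] Y} {HH : X →L[ℝ] X →L[ℝ] ℝ}
    (P : Good g p A BB HH) {ε : ℝ} (hε : 0 < ε) : ∀ᶠ y in 𝓝 p, ‖y‖ = 1 →
      ‖g y - A y - (1 / 2 : ℝ) • BB (y - p) (y - p)‖ ≤ ε * ‖y - p‖ ^ 2 := by
  obtain ⟨ρ, hρ, hb⟩ := P.T_exp ε hε
  refine Metric.eventually_nhds_iff.2 ⟨ρ, hρ, fun {y} hy hy1 => ?_⟩
  have h1 := hb y (by rwa [dist_eq_norm] at hy)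
  rw [radial_of_unit g hy1, radial_of_unit g P.unit, map_sub, P.Ax] at h1
  have e : g y - g p - (A y - g p) = g y - A y := by abel
  rwa [e] at h1

variable [FiniteDimensional ℝ X] [FiniteDimensional ℝ Y]

/-- **Good points on a patch of points of finite second difference around an exposed point.** -/
theorem exists_good_of_patch [Nontrivial X] (H : SphereIso g h) {e : X} (he : ‖e‖ = 1)
    {ψ₀ : StrongDual ℝ X} (hψ₁ : ‖ψ₀‖ ≤ 1) (hψe : ψ₀ e = 1) (hexp : ∀ x, ‖x‖ = 1 → ψ₀ x = 1 → x = e)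
    {r : ℝ} (hr : 0 < r) (hR : ∀ x, ‖x‖ = 1 → ‖x - e‖ < r → Far.Reg x) :
    ∃ (p : X) (A : X →L[ℝ] Y) (BB : X →L[ℝ] X →L[ℝ] Y) (HH : X →L[ℝ] X →L[ℝ] ℝ),
      ‖p - e‖ < r ∧ Good g p A BB HH := by
  obtain ⟨z, A, B, Q, hze, hAz, hTz, hNz, hBs, hQs, hnd⟩ :=
    exists_expansion_point H he hψ₁ hψe hexp hr hR
  obtain ⟨hz0, -, -, hu, hpe⟩ := ball_facts he hze
  obtain ⟨s, hsd⟩ : ∃ s, s = ‖z‖ := ⟨_, rfl⟩
  have hs0 : 0 < s := by
    rw [hsd]
    exact norm_pos_iff.2 hz0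
  obtain ⟨p, hpd⟩ : ∃ p, p = ‖z‖⁻¹ • z := ⟨_, rfl⟩
  rw [← hpd] at hu hpe hAz
  have hzs : s • p = z := by
    rw [hpd, ← hsd, smul_smul, mul_inv_cancel₀ hs0.ne', one_smul]
  have hRp : Far.Reg p := hR p hu hpe
  have hd := reg_differentiable hu hRp
  have hself : chi p p = 1 := chi_self_unit hd hu
  have hchi : chi z = chi p := by
    rw [← hzs]
    exact chi_smul hs0 p
  rw [hchi] at hNz hnd
  have hradial : ∀ c : ℝ, 0 < c → ∀ y, radial g (c • y) = c • radial g y :=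
    fun c hc y => radial_smul g hc.le y
  have hnorm : ∀ c : ℝ, 0 < c → ∀ y : X, ‖c • y‖ = c • ‖y‖ := fun c hc y => by
    rw [norm_smul, Real.norm_of_nonneg hc.le, smul_eq_mul]
  rw [← hzs] at hTz hNz
  have hT := exp2_scale hradial hs0 hTz
  have hN := exp2_scale (T := fun y : X => ‖y‖) hnorm hs0 hNz
  have hB' : ∀ a b, (s • B) a b = (s • B) b a := fun a b => by
    simp only [_root_.smul_apply, hBs a b]
  have hQ' : ∀ a b, (s • Q) a b = (s • Q) b a := fun a b => by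
    simp only [_root_.smul_apply, hQs a b]
  have hpsd := psd_of_exp hN
  refine ⟨p, A, s • B, s • Q, hpe, ?_⟩
  refine ⟨hu, hRp, hAz, hT, hN, hB', ?_, hQ', ?_, ?_⟩
  · exact euler_second hB' hradial (by rw [radial_of_unit g hu]; exact hAz) hT
  · refine euler_second hQ' hnorm (by rw [hself, hu]) hN
  · intro w hw hw0
    refine lt_of_le_of_ne (hpsd w) fun he0 => hw0 ?_
    have h1 := null_of_psd hQ' hpsd he0.symm
    refine hnd w hw ?_
    have h2 : s • Q w = 0 := by simpa using h1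
    exact (smul_eq_zero.1 h2).resolve_left hs0.ne'

/-- **Density of rough or good points around an exposed point.** -/
theorem exists_good_or_rough [Nontrivial X] (H : SphereIso g h) {e : X} (he : ‖e‖ = 1)
    {ψ₀ : StrongDual ℝ X} (hψ₁ : ‖ψ₀‖ ≤ 1) (hψe : ψ₀ e = 1) (hexp : ∀ x, ‖x‖ = 1 → ψ₀ x = 1 → x = e)
    {ρ : ℝ} (hρ : 0 < ρ) :
    ∃ p : X, ‖p‖ = 1 ∧ ‖p - e‖ < ρ ∧ (¬ Far.Reg p ∨
      ∃ (A : X →L[ℝ] Y) (BB : X →L[ℝ] X →L[ℝ] Y) (HH : X →L[ℝ] X →L[ℝ] ℝ), Good g p A BB HH) := by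
  by_cases hR : ∀ x, ‖x‖ = 1 → ‖x - e‖ < ρ → Far.Reg x
  · obtain ⟨p, A, BB, HH, h1, h2⟩ := exists_good_of_patch H he hψ₁ hψe hexp hρ hR
    exact ⟨p, h2.unit, h1, Or.inr ⟨A, BB, HH, h2⟩⟩
  · push Not at hR
    obtain ⟨x, h1, h2, h3⟩ := hR
    exact ⟨x, h1, h2, Or.inl h3⟩

end Good

end Vale.Agent.Lib.P084.Dens
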